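import Mathlib

/-! The multi-level exchange lemma and its counting form. -/

namespace Vale.Agent.P064

open Finset

variable {X : Type} [Fintype X] [DecidableEq X]

/-- the colourings -/
def Om (X : Type) [Fintype X] [DecidableEq X] (R : ℕ) : Finset (X → ℕ) :=
  Fintype.piFinset (fun _ : X => range (R + 1))

lemma mem_Om {R : ℕ} {a : X → ℕ} : a ∈ Om X R ↔ ∀ x, a x ≤ R := by
  simp [Om]

/-- weight of a colouring -/
def wt (π : ℕ → ℝ) (c : X → ℕ) : ℝ := ∏ x, π (c x)

omit [DecidableEq X] in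
lemma wt_nonneg {π : ℕ → ℝ} (h0 : ∀ i, 0 ≤ π i) (c : X → ℕ) : 0 ≤ wt π c :=
  prod_nonneg (fun _ _ => h0 _)

open Classical in
/-- probability of an event -/
noncomputable def Pr (π : ℕ → ℝ) (R : ℕ) (E : (X → ℕ) → Prop) : ℝ :=
  ∑ c ∈ Om X R, if E c then wt π c else 0

lemma total_prob {R : ℕ} {π : ℕ → ℝ} (h1 : ∑ i ∈ range (R + 1), π i = 1) :
    ∑ a ∈ Om X R, wt π a = 1 := by
  unfold Om wt
  rw [← prod_univ_sum (fun _ : X => range (R + 1)) (fun _ i => π i)]
  simp [h1]

lemma Pr_mono {R : ℕ} {π : ℕ → ℝ} (h0 : ∀ i, 0 ≤ π i) {E E' : (X → ℕ) → Prop}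
    (h : ∀ c ∈ Om X R, E c → E' c) : Pr π R E ≤ Pr π R E' := by
  unfold Pr
  apply sum_le_sum
  intro c hc
  by_cases h1 : E c
  · rw [if_pos h1, if_pos (h c hc h1)]
  · rw [if_neg h1]
    split_ifs
    · exact wt_nonneg h0 c
    · exact le_rfl

lemma Pr_or {R : ℕ} {π : ℕ → ℝ} (h0 : ∀ i, 0 ≤ π i) {E E₁ E₂ : (X → ℕ) → Prop}
    (h : ∀ c ∈ Om X R, E c → E₁ c ∨ E₂ c) : Pr π R E ≤ Pr π R E₁ + Pr π R E₂ := by
  unfold Pr
  rw [← sum_add_distrib]
  apply sum_le_sum
  intro c hc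
  have := wt_nonneg h0 c
  have := h c hc
  split_ifs <;> first | linarith | tauto

lemma Pr_union {ζ : Type} {R : ℕ} {π : ℕ → ℝ} (h0 : ∀ i, 0 ≤ π i) (Z : Finset ζ)
    {E : (X → ℕ) → Prop} {F : ζ → (X → ℕ) → Prop}
    (h : ∀ c ∈ Om X R, E c → ∃ z ∈ Z, F z c) : Pr π R E ≤ ∑ z ∈ Z, Pr π R (F z) := by
  classical
  unfold Pr
  rw [sum_comm]
  apply sum_le_sum
  intro c hc
  have hnn : ∀ z ∈ Z, (0 : ℝ) ≤ @ite _ (F z c) (Classical.propDecidable _) (wt π c) 0 := by
    intro z _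
    split_ifs
    · exact wt_nonneg h0 c
    · exact le_rfl
  split_ifs with hE
  · obtain ⟨z, hz, hF⟩ := h c hc hE
    refine le_trans ?_ (single_le_sum hnn hz)
    rw [if_pos hF]
  · exact sum_nonneg hnn

lemma Pr_not {R : ℕ} {π : ℕ → ℝ} (h1 : ∑ i ∈ range (R + 1), π i = 1) (E : (X → ℕ) → Prop) :
    Pr π R E + Pr π R (fun c => ¬ E c) = 1 := by
  unfold Pr
  rw [← sum_add_distrib, ← total_prob (X := X) h1]
  apply sum_congr rfl
  intro c _
  by_cases h : E c <;> simp [h]

lemma sum_comp {R : ℕ} (π : ℕ → ℝ) (σ : X ≃ X) (f : (X → ℕ) → ℝ) :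
    ∑ c ∈ Om X R, wt π c * f (c ∘ σ) = ∑ c ∈ Om X R, wt π c * f c := by
  apply sum_nbij' (fun c => c ∘ σ) (fun c => c ∘ σ.symm)
  · intro c hc
    exact mem_Om.2 (fun x => mem_Om.1 hc _)
  · intro c hc
    exact mem_Om.2 (fun x => mem_Om.1 hc _)
  · intro c _; ext x; simp
  · intro c _; ext x; simp
  · intro c _
    congr 1
    unfold wt
    exact (Equiv.prod_comp σ (fun x => π (c x))).symm

lemma Pr_comp {R : ℕ} (π : ℕ → ℝ) (σ : X ≃ X) (E : (X → ℕ) → Prop) :
    Pr π R (fun c => E (c ∘ σ)) = Pr π R E := by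
  classical
  have := sum_comp (R := R) π σ (fun c => if E c then 1 else 0)
  unfold Pr
  simp only [mul_ite, mul_one, mul_zero] at this
  convert this

lemma fibre_prob {R : ℕ} {π : ℕ → ℝ} (h0 : ∀ i, 0 ≤ π i) (h1 : ∑ i ∈ range (R + 1), π i = 1)
    (b : X → ℕ) (U : Finset X) (hU : ∀ x ∈ U, 0 < π (b x)) :
    Pr π R (fun a => ∀ x ∉ U, a x = b x) ≤ wt π b * ∏ x ∈ U, (π (b x))⁻¹ := by
  classical
  calc Pr π R (fun a => ∀ x ∉ U, a x = b x)
      = ∑ a ∈ (Om X R).filter (fun a => ∀ x ∉ U, a x = b x), wt π a := by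
        unfold Pr; rw [sum_filter]; apply sum_congr rfl; intro c _; congr
    _ ≤ ∑ a ∈ Fintype.piFinset (fun x => if x ∈ U then range (R + 1) else {b x}), wt π a := by
        apply sum_le_sum_of_subset_of_nonneg
        · intro a ha
          rw [mem_filter] at ha
          rw [Fintype.mem_piFinset]
          intro x
          split_ifs with hx
          · exact mem_range.2 (Nat.lt_succ_of_le (mem_Om.1 ha.1 x))
          · exact mem_singleton.2 (ha.2 x hx)
        · intro a _ _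
          exact wt_nonneg h0 a
    _ = ∏ x, ∑ i ∈ (if x ∈ U then range (R + 1) else {b x}), π i :=
        (prod_univ_sum _ (fun _ i => π i)).symm
    _ = ∏ x, (π (b x) * if x ∈ U then (π (b x))⁻¹ else 1) := by
        apply prod_congr rfl
        intro x _
        split_ifs with hx
        · rw [h1, mul_inv_cancel₀ (hU x hx).ne']
        · simp
    _ = _ := by
        rw [prod_mul_distrib, prod_ite_mem, univ_inter]; rfl

open Classical in
lemma count_abstract {ι : Type} {R : ℕ} {π : ℕ → ℝ} (h0 : ∀ i, 0 ≤ π i)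
    (h1 : ∑ i ∈ range (R + 1), π i = 1) (A : Finset ι) (P : ι → Finset X)
    (Fam : (X → ℕ) → Finset (Finset X)) (fail : ι → (X → ℕ) → Prop) (M : ℝ)
    (hA : ∀ h ∈ A, ∀ c ∈ Om X R, fail h c →
      ∃ b ∈ Om X R, ∃ T ∈ Fam b, T ⊆ P h ∧ ∀ x ∉ T, c x = b x)
    (hpos : ∀ b, ∀ T ∈ Fam b, ∀ x ∈ T, 0 < π (b x))
    (hB : ∀ b, ∑ T ∈ Fam b,
      ((A.filter (fun h => T ⊆ P h)).card : ℝ) * ∏ x ∈ T, (π (b x))⁻¹ ≤ M) :
    ∑ h ∈ A, Pr π R (fail h) ≤ M := by
  calc ∑ h ∈ A, Pr π R (fail h)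
      ≤ ∑ h ∈ A, ∑ b ∈ Om X R, ∑ T ∈ Fam b, if T ⊆ P h then
          Pr π R (fun a => ∀ x ∉ T, a x = b x) else 0 := by
        apply sum_le_sum
        intro h hh
        refine (Pr_union h0 (Om X R) (F := fun b c =>
          ∃ T ∈ (Fam b).filter (fun T => T ⊆ P h), ∀ x ∉ T, c x = b x) ?_).trans ?_
        · intro c hc hf
          obtain ⟨b, hb, T, hT, h2, h3⟩ := hA h hh c hc hf
          exact ⟨b, hb, T, mem_filter.2 ⟨hT, h2⟩, h3⟩
        · apply sum_le_sum
          intro b _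
          rw [← sum_filter]
          exact Pr_union h0 _ (fun c _ hc => hc)
    _ = ∑ b ∈ Om X R, ∑ T ∈ Fam b, ((A.filter (fun h => T ⊆ P h)).card : ℝ) *
          Pr π R (fun a => ∀ x ∉ T, a x = b x) := by
        rw [sum_comm]
        apply sum_congr rfl
        intro b _
        rw [sum_comm]
        apply sum_congr rfl
        intro T _
        rw [← sum_filter, sum_const, nsmul_eq_mul]
    _ ≤ ∑ b ∈ Om X R, wt π b * M := by
        apply sum_le_sum
        intro b _
        refine le_trans ?_ (mul_le_mul_of_nonneg_left (hB b) (wt_nonneg h0 b))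
        rw [mul_sum]
        apply sum_le_sum
        intro T hT
        have := fibre_prob h0 h1 b T (hpos b T hT)
        calc _ ≤ ((A.filter (fun h => T ⊆ P h)).card : ℝ) * (wt π b * ∏ x ∈ T, (π (b x))⁻¹) := by
              gcongr
          _ = _ := by ring
    _ = M := by rw [← sum_mul, total_prob h1, one_mul]

/-- number of roles of level at most `i` with colour at least `s` -/
def cnt (D : Finset X) (lev : X → ℕ) (a : X → ℕ) (i s : ℕ) : ℕ :=
  (D.filter (fun y => lev y ≤ i ∧ s ≤ a y)).card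

/-- cumulative profile -/
def prof (t : Finset X) (a : X → ℕ) (s : ℕ) : ℕ := (t.filter (fun y => a y < s)).card

def Valid (D : Finset X) (lev : X → ℕ) (tol ex : ℕ → ℕ → ℝ) (a : X → ℕ) (N : ℕ → ℕ) : Prop :=
  ∀ i s, 1 ≤ s → (cnt D lev a i s : ℝ) ≤ tol i s + max 0 (ex i s - N s)

def Adm (D : Finset X) (lev : X → ℕ) (ex : ℕ → ℕ → ℝ) (R : ℕ) (a : X → ℕ) (N : ℕ → ℕ)
    (t : Finset X) : Prop :=
  t ⊆ D ∧ t.Nonempty ∧ (∀ s, prof t a s = N s) ∧
    ∀ y ∈ t, a y < R ∧ ex (lev y) (a y + 1) < N (a y + 1)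

lemma exchange {ι : Type} (G : Finset ι) (e : ι → X → X) (he : ∀ g, Function.Injective (e g))
    (D : Finset X) (lev : X → ℕ) (tol ex : ℕ → ℕ → ℝ) (hex0 : ∀ i s, 0 ≤ ex i s)
    (hex : ∀ i i' s, i ≤ i' → ex i s ≤ ex i' s) {R : ℕ} (P : Finset X) {c : X → ℕ}
    (hc : c ∈ Om X R)
    (h1 : ∃ g ∈ G, ∀ i s, 1 ≤ s →
      (cnt (D.filter (fun y => e g y ∉ P)) lev (c ∘ e g) i s : ℝ) ≤ tol i s)
    (h2 : ¬ ∃ g ∈ G, ∀ i s, 1 ≤ s → (cnt D lev (c ∘ e g) i s : ℝ) ≤ tol i s + ex i s) :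
    ∃ b ∈ Om X R, ∃ T ⊆ P, (∀ x ∉ T, c x = b x) ∧
      (∃ g ∈ G, Valid D lev tol ex (b ∘ e g) (prof T b)) ∧
      ∀ g ∈ G, Valid D lev tol ex (b ∘ e g) (prof T b) →
        ∃ t, Adm D lev ex R (b ∘ e g) (prof T b) t ∧ t.image (e g) = T := by
  classical
  set TT : (X → ℕ) → Finset X := fun b => univ.filter (fun x => b x < c x) with hTT
  set Cand := (Om X R).filter (fun b => (∀ x, b x ≤ c x) ∧ TT b ⊆ P ∧
    ∃ g ∈ G, Valid D lev tol ex (b ∘ e g) (prof (TT b) b)) with hCand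
  have hne : Cand.Nonempty := by
    obtain ⟨g, hg, h1⟩ := h1
    refine ⟨fun x => if x ∈ P then 0 else c x, mem_filter.2 ⟨mem_Om.2 (fun x => ?_),
      fun x => ?_, fun x hx => ?_, g, hg, fun i s hs => ?_⟩⟩
    · have := mem_Om.1 hc x
      split_ifs <;> omega
    · show (if x ∈ P then 0 else c x) ≤ c x
      split_ifs <;> omega
    · by_contra h
      simp [hTT, h] at hx
    · refine le_trans ?_ ((h1 i s hs).trans (le_add_of_nonneg_right (le_max_left _ _)))
      unfold cnt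
      norm_cast
      apply card_le_card
      intro y hy
      simp only [mem_filter, Function.comp] at hy ⊢
      obtain ⟨hy1, hy2, hy3⟩ := hy
      by_cases h : e g y ∈ P
      · rw [if_pos h] at hy3; omega
      · rw [if_neg h] at hy3; exact ⟨⟨hy1, h⟩, hy2, hy3⟩
  obtain ⟨b, hb, hmax⟩ := exists_max_image Cand (fun b => ∑ x, b x) hne
  obtain ⟨hb1, hb2, hb3, hb4⟩ := mem_filter.1 hb
  have hoff : ∀ x ∉ TT b, c x = b x := by
    intro x hx
    have := hb2 x
    simp only [hTT, mem_filter, mem_univ, true_and] at hx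
    omega
  refine ⟨b, hb1, TT b, hb3, hoff, hb4, fun g hg hv => ?_⟩
  have hTne : (TT b).Nonempty := by
    rw [nonempty_iff_ne_empty]
    intro h
    apply h2
    have hbc : b = c := by
      ext x; exact (hoff x (by rw [h]; simp)).symm
    refine ⟨g, hg, fun i s hs => ?_⟩
    have := hv i s hs
    rw [h, hbc] at this
    simp only [prof, filter_empty, card_empty, Nat.cast_zero, sub_zero] at this
    rwa [max_eq_right (hex0 i s)] at this
  have hB : ∀ x ∈ TT b, ∃ y ∈ D, e g y = x ∧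
      ex (lev y) (b x + 1) < prof (TT b) b (b x + 1) := by
    intro x hx
    by_contra hcon
    push Not at hcon
    have hxc : b x < c x := (mem_filter.1 hx).2
    set b' : X → ℕ := Function.update b x (b x + 1) with hb'
    have hb'x : b' x = b x + 1 := by simp [hb']
    have hb'y : ∀ z, z ≠ x → b' z = b z := fun z hz => by simp [hb', hz]
    have hle : ∀ z, b z ≤ b' z := fun z => by
      by_cases hz : z = x
      · rw [hz, hb'x]; omega
      · rw [hb'y z hz]
    have hT' : TT b' ⊆ TT b := by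
      intro z hz
      have := hle z
      simp only [hTT, mem_filter, mem_univ, true_and] at hz ⊢
      omega
    have hN : ∀ s, prof (TT b') b' s ≤ prof (TT b) b s := by
      intro s
      apply card_le_card
      intro z hz
      rw [mem_filter] at hz ⊢
      exact ⟨hT' hz.1, (hle z).trans_lt hz.2⟩
    have hN' : prof (TT b') b' (b x + 1) + 1 ≤ prof (TT b) b (b x + 1) := by
      apply card_lt_card
      refine ⟨fun z hz => ?_, fun h => ?_⟩
      · rw [mem_filter] at hz ⊢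
        exact ⟨hT' hz.1, (hle z).trans_lt hz.2⟩
      · have := (mem_filter.1 (h (mem_filter.2 ⟨hx, Nat.lt_succ_self _⟩))).2
        omega
    have hb'C : b' ∈ Cand := by
      refine mem_filter.2 ⟨mem_Om.2 (fun z => ?_), fun z => ?_, hT'.trans hb3, g, hg, ?_⟩
      · by_cases hz : z = x
        · have := mem_Om.1 hc x
          rw [hz, hb'x]; omega
        · rw [hb'y z hz]; exact mem_Om.1 hb1 z
      · by_cases hz : z = x
        · rw [hz, hb'x]; omega
        · rw [hb'y z hz]; exact hb2 z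
      · intro i s hs
        have hv' := hv i s hs
        by_cases hcase : s = b x + 1 ∧ ∃ y ∈ D, e g y = x ∧ lev y ≤ i
        · obtain ⟨rfl, y, hy1, hy2, hy3⟩ := hcase
          have h3 := (hcon y hy1 hy2).trans (hex _ _ _ hy3)
          have h4 : cnt D lev (b' ∘ e g) i (b x + 1) ≤ cnt D lev (b ∘ e g) i (b x + 1) + 1 := by
            unfold cnt
            refine le_trans (card_le_card (t := insert y _) ?_) (card_insert_le _ _)
            intro z hz
            rw [mem_insert]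
            by_cases hzy : z = y
            · exact Or.inl hzy
            · right
              simp only [mem_filter, Function.comp] at hz ⊢
              rw [hb'y _ (fun h => hzy (he g (h.trans hy2.symm)))] at hz
              exact hz
          have h5 : (cnt D lev (b' ∘ e g) i (b x + 1) : ℝ) ≤
            cnt D lev (b ∘ e g) i (b x + 1) + 1 := by exact_mod_cast h4
          have h6 : (prof (TT b') b' (b x + 1) : ℝ) + 1 ≤ prof (TT b) b (b x + 1) := by
            exact_mod_cast hN'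
          rw [max_eq_right (by linarith)] at hv'
          have := le_max_right 0 (ex i (b x + 1) - prof (TT b') b' (b x + 1))
          linarith
        · have h4 : cnt D lev (b' ∘ e g) i s ≤ cnt D lev (b ∘ e g) i s := by
            unfold cnt
            apply card_le_card
            intro z hz
            simp only [mem_filter, Function.comp] at hz ⊢
            refine ⟨hz.1, hz.2.1, ?_⟩
            by_cases hzx : e g z = x
            · have h7 : s ≠ b x + 1 := fun h => hcase ⟨h, z, hz.1, hzx, hz.2.1⟩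
              have h8 := hz.2.2
              rw [hzx, hb'x] at h8
              rw [hzx]; omega
            · rw [← hb'y _ hzx]; exact hz.2.2
          have h5 : (cnt D lev (b' ∘ e g) i s : ℝ) ≤ cnt D lev (b ∘ e g) i s := by
            exact_mod_cast h4
          have h6 : (prof (TT b') b' s : ℝ) ≤ prof (TT b) b s := by exact_mod_cast hN s
          have : max 0 (ex i s - prof (TT b) b s) ≤ max 0 (ex i s - prof (TT b') b' s) :=
            max_le_max le_rfl (by linarith)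
          linarith
    have h9 := hmax b' hb'C
    have h10 : ∑ z, b z < ∑ z, b' z :=
      sum_lt_sum (fun z _ => hle z) ⟨x, mem_univ _, by rw [hb'x]; omega⟩
    omega
  have himg : (D.filter (fun y => e g y ∈ TT b)).image (e g) = TT b := by
    ext x
    simp only [mem_image, mem_filter (s := D)]
    constructor
    · rintro ⟨y, hy, rfl⟩; exact hy.2
    · intro hx
      obtain ⟨y, hy1, hy2, -⟩ := hB x hx
      exact ⟨y, ⟨hy1, hy2 ▸ hx⟩, hy2⟩
  refine ⟨D.filter (fun y => e g y ∈ TT b), ⟨filter_subset _ _, ?_, ?_, ?_⟩, himg⟩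
  · rw [← himg] at hTne
    exact hTne.of_image
  · intro s
    conv_rhs => rw [← himg]
    unfold prof
    rw [filter_image, card_image_of_injective _ (he g)]
    rfl
  · intro y hy
    rw [mem_filter] at hy
    obtain ⟨y', -, hy2, hy3⟩ := hB _ hy.2
    rw [he g hy2] at hy3
    refine ⟨?_, hy3⟩
    have h3 : b (e g y) < c (e g y) := (mem_filter.1 hy.2).2
    exact h3.trans_le (mem_Om.1 hc _)

lemma sum_biUnion_le' {α β : Type} [DecidableEq β] (s : Finset α) (t : α → Finset β) (f : β → ℝ)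
    (hf : ∀ b, 0 ≤ f b) : ∑ b ∈ s.biUnion t, f b ≤ ∑ a ∈ s, ∑ b ∈ t a, f b := by
  classical
  induction s using Finset.induction_on with
  | empty => simp
  | insert a s ha ih =>
    rw [biUnion_insert, sum_insert ha]
    have h1 := sum_union_inter (s₁ := t a) (s₂ := s.biUnion t) (f := f)
    have h2 := sum_nonneg (s := t a ∩ s.biUnion t) (fun b _ => hf b)
    linarith

open Classical in
theorem exchange_count {ι ι' κ : Type} (G : Finset ι) (e : ι → X → X)
    (he : ∀ g, Function.Injective (e g))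
    (D : Finset X) (lev : X → ℕ) (tol ex : ℕ → ℕ → ℝ) (hex0 : ∀ i s, 0 ≤ ex i s)
    (hex : ∀ i i' s, i ≤ i' → ex i s ≤ ex i' s) {R : ℕ} {π : ℕ → ℝ} (h0 : ∀ i, 0 ≤ π i)
    (h1 : ∑ i ∈ range (R + 1), π i = 1) (hπ : ∀ s < R, 0 < π s)
    (A : Finset ι') (P : ι' → Finset X) (K : Finset κ) (dec : κ → ℕ → ℕ) (Bd : κ → ℝ)
    (hBd : ∀ k ∈ K, 0 ≤ Bd k)
    (hK1 : ∀ a N t, Valid D lev tol ex a N → Adm D lev ex R a N t → ∃ k ∈ K, dec k = N)
    (hK2 : ∀ k ∈ K, ∀ g ∈ G, ∀ a, Valid D lev tol ex a (dec k) →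
      ∑ t ∈ D.powerset.filter (Adm D lev ex R a (dec k)),
        ((A.filter (fun h => t.image (e g) ⊆ P h)).card : ℝ) * ∏ y ∈ t, (π (a y))⁻¹ ≤ Bd k) :
    ∑ h ∈ A, Pr π R (fun c => (∃ g ∈ G, ∀ i s, 1 ≤ s →
      (cnt (D.filter (fun y => e g y ∉ P h)) lev (c ∘ e g) i s : ℝ) ≤ tol i s) ∧
      ¬ ∃ g ∈ G, ∀ i s, 1 ≤ s → (cnt D lev (c ∘ e g) i s : ℝ) ≤ tol i s + ex i s) ≤
      ∑ k ∈ K, Bd k := by
  set Fam : (X → ℕ) → κ → Finset (Finset X) := fun b k =>
    if h : ∃ g ∈ G, Valid D lev tol ex (b ∘ e g) (dec k) then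
      (D.powerset.filter (Adm D lev ex R (b ∘ e h.choose) (dec k))).image
        (fun t => t.image (e h.choose)) else ∅ with hFam
  apply count_abstract h0 h1 A P (fun b => K.biUnion (Fam b))
  · rintro h - c hc ⟨hf1, hf2⟩
    obtain ⟨b, hb, T, hT, h3, h4, h5⟩ := exchange G e he D lev tol ex hex0 hex (P h) hc hf1 hf2
    refine ⟨b, hb, T, ?_, hT, h3⟩
    obtain ⟨g, hg, hv⟩ := h4
    obtain ⟨t, ht, -⟩ := h5 g hg hv
    obtain ⟨k, hk, hk2⟩ := hK1 _ _ _ hv ht
    rw [mem_biUnion]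
    refine ⟨k, hk, ?_⟩
    have h6 : ∃ g ∈ G, Valid D lev tol ex (b ∘ e g) (dec k) := ⟨g, hg, hk2 ▸ hv⟩
    simp only [hFam]
    rw [dif_pos h6]
    rw [← hk2] at h5
    obtain ⟨t', ht', ht''⟩ := h5 _ h6.choose_spec.1 h6.choose_spec.2
    exact mem_image.2 ⟨t', mem_filter.2 ⟨mem_powerset.2 ht'.1, ht'⟩, ht''⟩
  · intro b T hT x hx
    obtain ⟨k, -, hT⟩ := mem_biUnion.1 hT
    simp only [hFam] at hT
    split_ifs at hT with h
    · obtain ⟨t, ht, rfl⟩ := mem_image.1 hT
      obtain ⟨y, hy, rfl⟩ := mem_image.1 hx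
      exact hπ _ ((mem_filter.1 ht).2.2.2.2 y hy).1
    · simp at hT
  · intro b
    have hnn : ∀ T : Finset X,
        0 ≤ ((A.filter (fun h => T ⊆ P h)).card : ℝ) * ∏ x ∈ T, (π (b x))⁻¹ := fun T =>
      mul_nonneg (Nat.cast_nonneg _) (prod_nonneg (fun x _ => inv_nonneg.2 (h0 _)))
    refine (sum_biUnion_le' _ _ _ hnn).trans (sum_le_sum (fun k hk => ?_))
    simp only [hFam]
    split_ifs with h
    · refine (sum_image_le_of_nonneg (fun T _ => hnn T)).trans ?_
      refine le_trans (le_of_eq ?_) (hK2 k hk _ h.choose_spec.1 _ h.choose_spec.2)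
      apply sum_congr rfl
      intro t _
      rw [prod_image (fun x _ y _ hxy => he _ hxy)]
      rfl
    · simpa using hBd k hk

end Vale.Agent.P064
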