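import Vale.Agent.P064.Exchange

/-! Flags of tight sets for a group action, and elementary estimates. -/

namespace Vale.Agent.P064

open Finset
open scoped Pointwise

variable {Γ X : Type} [Group Γ] [Fintype Γ] [DecidableEq Γ] [Fintype X] [DecidableEq X]
  [MulAction Γ X]

def IsSub (G : Finset Γ) : Prop := 1 ∈ G ∧ (∀ a ∈ G, ∀ b ∈ G, a * b ∈ G) ∧ ∀ a ∈ G, a⁻¹ ∈ G

def stab (G : Finset Γ) (A : Finset X) : Finset Γ := G.filter (fun k => k • A = A)

omit [Fintype Γ] [DecidableEq Γ] [Fintype X] in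
lemma IsSub.stab {G : Finset Γ} (h : IsSub G) (A : Finset X) : IsSub (stab G A) := by
  refine ⟨mem_filter.2 ⟨h.1, one_smul _ _⟩, fun a ha b hb => ?_, fun a ha => ?_⟩
  · obtain ⟨ha1, ha2⟩ := mem_filter.1 ha
    obtain ⟨hb1, hb2⟩ := mem_filter.1 hb
    exact mem_filter.2 ⟨h.2.1 a ha1 b hb1, by rw [mul_smul, hb2, ha2]⟩
  · obtain ⟨ha1, ha2⟩ := mem_filter.1 ha
    exact mem_filter.2 ⟨h.2.2 a ha1, by rw [inv_smul_eq_iff, ha2]⟩

noncomputable def rr (q : ℝ) (lev : X → ℕ) (j : ℕ) (x : X) : ℝ :=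
  128 * q * (1 / 128) ^ (j - lev x)

omit [Fintype X] [DecidableEq X] in
lemma rr_pos {q : ℝ} (hq : 0 < q) (lev : X → ℕ) (j : ℕ) (x : X) : 0 < rr q lev j x := by
  unfold rr; positivity

omit [Fintype X] [DecidableEq X] in
lemma rr_succ_le {q : ℝ} (hq : 0 < q) (lev : X → ℕ) (j : ℕ) (x : X) :
    rr q lev (j + 1) x ≤ rr q lev j x := by
  unfold rr
  apply mul_le_mul_of_nonneg_left _ (by positivity)
  exact pow_le_pow_of_le_one (by norm_num) (by norm_num) (by omega)

def Good (H : Finset X) (lev : X → ℕ) (q : ℝ) (j : ℕ) (B : Finset X) (G : Finset Γ) : Prop :=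
  IsSub G ∧ B ⊆ H ∧ (∀ k ∈ G, k • B = B) ∧
    (Fintype.card Γ : ℝ) * ∏ x ∈ B, rr q lev j x ≤ G.card ∧
    ∀ t ⊆ H \ B, ((stab G t).card : ℝ) ≤ G.card * ∏ x ∈ t, rr q lev j x

omit [DecidableEq Γ] [Fintype X] in
lemma Good.next {H : Finset X} {lev : X → ℕ} {q : ℝ} (hq : 0 < q) {j : ℕ} {B : Finset X}
    {G : Finset Γ} (h : Good H lev q j B G) :
    ∃ B' G', Good H lev q (j + 1) B' G' ∧ G' ⊆ G := by
  obtain ⟨h1, h2, h3, h4, -⟩ := h
  set r := rr q lev (j + 1) with hr
  have hr0 : ∀ x, 0 < r x := rr_pos hq lev _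
  have hP : ∀ A : Finset X, 0 < ∏ x ∈ A, r x := fun A => prod_pos (fun x _ => hr0 x)
  have hS : ∀ A : Finset X, (0 : ℝ) < (stab G A).card := fun A => by
    exact_mod_cast card_pos.2 ⟨1, (h1.stab A).1⟩
  obtain ⟨B', hB', hmin⟩ := exists_min_image (H.powerset.filter (fun A => B ⊆ A))
    (fun A => (∏ x ∈ A, r x) / (stab G A).card) ⟨B, mem_filter.2 ⟨mem_powerset.2 h2, subset_rfl⟩⟩
  obtain ⟨hB1, hB2⟩ := mem_filter.1 hB'
  rw [mem_powerset] at hB1
  refine ⟨B', stab G B', ⟨h1.stab B', hB1, fun k hk => (mem_filter.1 hk).2, ?_, ?_⟩,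
    filter_subset _ _⟩
  · have h5 := hmin B (mem_filter.2 ⟨mem_powerset.2 h2, subset_rfl⟩)
    have h6 : stab G B = G := filter_true_of_mem h3
    rw [div_le_div_iff₀ (hS _) (hS _), h6] at h5
    have h7 : ∏ x ∈ B, r x ≤ ∏ x ∈ B, rr q lev j x :=
      prod_le_prod (fun x _ => (hr0 x).le) (fun x _ => rr_succ_le hq lev j x)
    have h8 : (Fintype.card Γ : ℝ) * ∏ x ∈ B, r x ≤ G.card :=
      le_trans (mul_le_mul_of_nonneg_left h7 (Nat.cast_nonneg _)) h4
    have h9 := hP B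
    have h10 := hP B'
    have h11 : (∏ x ∈ B, r x) * ((Fintype.card Γ : ℝ) * ∏ x ∈ B', r x) ≤
        (∏ x ∈ B, r x) * (stab G B').card := by
      refine le_trans ?_ h5
      nlinarith
    exact le_of_mul_le_mul_left h11 h9
  · intro t ht
    have hd : Disjoint B' t := disjoint_of_subset_right ht disjoint_sdiff
    have h5 := hmin (B' ∪ t) (mem_filter.2 ⟨mem_powerset.2
      (union_subset hB1 (ht.trans sdiff_subset)), hB2.trans subset_union_left⟩)
    rw [div_le_div_iff₀ (hS _) (hS _), prod_union hd, mul_assoc] at h5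
    have h6 := le_of_mul_le_mul_left h5 (hP B')
    have h7 : (stab (stab G B') t).card ≤ (stab G (B' ∪ t)).card := by
      apply card_le_card
      intro k hk
      obtain ⟨hk1, hk2⟩ := mem_filter.1 hk
      obtain ⟨hk3, hk4⟩ := mem_filter.1 hk1
      exact mem_filter.2 ⟨hk3, by rw [smul_finset_union, hk2, hk4]⟩
    have h8 : ((stab (stab G B') t).card : ℝ) ≤ (stab G (B' ∪ t)).card := by exact_mod_cast h7
    rw [mul_comm]
    exact h8.trans h6

omit [Fintype X] [DecidableEq X] in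
lemma sum_lev_le {H : Finset X} {lev : X → ℕ}
    (hlev : ∀ i, (H.filter (fun x => lev x ≤ i)).card ≤ 4 ^ i) (j : ℕ) :
    ∑ x ∈ H, (j - lev x) + 1 ≤ 4 ^ j := by
  induction j with
  | zero => simp
  | succ j ih =>
    have h1 : ∑ x ∈ H, (j + 1 - lev x) =
        ∑ x ∈ H, (j - lev x) + (H.filter (fun x => lev x ≤ j)).card := by
      rw [card_filter, ← sum_add_distrib]
      apply sum_congr rfl
      intro x _
      split_ifs <;> omega
    have := hlev j
    rw [h1, pow_succ]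
    omega

omit [DecidableEq Γ] [Fintype X] in
lemma Good.size {H : Finset X} {lev : X → ℕ} {q : ℝ} (hq : 0 < q) {j : ℕ} {B : Finset X}
    {G : Finset Γ} (h : Good H lev q j B G)
    (hH : ∀ U ⊆ H, U.Nonempty →
      ((stab (univ : Finset Γ) U).card : ℝ) ≤ 2 * Fintype.card Γ * q ^ U.card)
    (hlev : ∀ i, (H.filter (fun x => lev x ≤ i)).card ≤ 4 ^ i) : B.card ≤ 4 ^ j := by
  rcases B.eq_empty_or_nonempty with rfl | hB
  · simp
  obtain ⟨-, h2, h3, h4, -⟩ := h
  have h5 := hH B h2 hB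
  have h6 : (G.card : ℝ) ≤ (stab (univ : Finset Γ) B).card := by
    exact_mod_cast card_le_card (fun k hk => mem_filter.2 ⟨mem_univ _, h3 k hk⟩)
  have h7 : ∏ x ∈ B, rr q lev j x =
      128 ^ B.card * q ^ B.card * (1 / 128) ^ (∑ x ∈ B, (j - lev x)) := by
    unfold rr
    rw [prod_mul_distrib, prod_const, prod_pow_eq_pow_sum, mul_pow]
  have hΓ : (0 : ℝ) < Fintype.card Γ := by exact_mod_cast Fintype.card_pos
  have h8 : (Fintype.card Γ * q ^ B.card) * (128 ^ B.card * (1 / 128) ^ (∑ x ∈ B, (j - lev x))) ≤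
      (Fintype.card Γ * q ^ B.card) * 2 := by
    rw [h7] at h4
    linarith
  have h9 := le_of_mul_le_mul_left h8 (by positivity)
  have h10 : (128 : ℝ) ^ B.card ≤ 128 ^ (∑ x ∈ B, (j - lev x) + 1) := by
    rw [one_div, inv_pow, ← div_eq_mul_inv, div_le_iff₀ (by positivity)] at h9
    rw [pow_succ]
    have : (0 : ℝ) < 128 ^ (∑ x ∈ B, (j - lev x)) := by positivity
    linarith
  have h11 := (pow_le_pow_iff_right₀ (by norm_num : (1 : ℝ) < 128)).1 h10
  have h12 : ∑ x ∈ B, (j - lev x) ≤ ∑ x ∈ H, (j - lev x) := sum_le_sum_of_subset h2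
  have := sum_lev_le hlev j
  omega

omit [Fintype Γ] [Fintype X] in
lemma spread {G : Finset Γ} (hG : IsSub G) {g : Γ} (hg : g ∈ G) (t B : Finset X) :
    (G.filter (fun h => g • t ⊆ h • B)).card ≤
      (powersetCard t.card B).card * (stab G t).card := by
  calc _ ≤ ((powersetCard t.card B).biUnion (fun T => G.filter (fun h => h • T = g • t))).card := by
        apply card_le_card
        intro h hh
        obtain ⟨h1, h2⟩ := mem_filter.1 hh
        refine mem_biUnion.2 ⟨h⁻¹ • g • t, mem_powersetCard.2 ⟨?_, ?_⟩,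
          mem_filter.2 ⟨h1, smul_inv_smul _ _⟩⟩
        · rwa [smul_finset_subset_iff, inv_inv]
        · rw [card_smul_finset, card_smul_finset]
    _ ≤ _ := by
        apply card_biUnion_le_card_mul
        intro T _
        rcases (G.filter (fun h => h • T = g • t)).eq_empty_or_nonempty with h | ⟨h₀, hh₀⟩
        · rw [h]; simp
        obtain ⟨h3, h4⟩ := mem_filter.1 hh₀
        apply card_le_card_of_injOn (fun h => g⁻¹ * h * h₀⁻¹ * g)
        · intro h hh
          obtain ⟨h1, h2⟩ := mem_filter.1 (mem_coe.1 hh)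
          refine mem_coe.2 (mem_filter.2 ⟨hG.2.1 _ (hG.2.1 _ (hG.2.1 _ (hG.2.2 _ hg) _ h1) _
            (hG.2.2 _ h3)) _ hg, ?_⟩)
          rw [mul_smul, ← h4, mul_smul, inv_smul_smul, mul_smul, h2, inv_smul_smul]
        · intro a _ b _ hab
          simpa using hab

omit [Fintype X] [DecidableEq X] in
lemma esymm_le (K : Finset X) (v : X → ℝ) (hv : ∀ x ∈ K, 0 ≤ v x) {S : ℝ} (hS : 0 < S)
    (h : ∑ x ∈ K, v x ≤ S) {n : ℕ} (hn : 0 < n) :
    ∑ t ∈ powersetCard n K, ∏ x ∈ t, v x ≤ (3 * S / n) ^ n := by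
  have hn' : (0 : ℝ) < n := by exact_mod_cast hn
  set z : ℝ := n / S with hz
  have hz0 : 0 < z := by positivity
  have h1 : z ^ n * ∑ t ∈ powersetCard n K, ∏ x ∈ t, v x ≤ 3 ^ n := by
    calc _ = ∑ t ∈ powersetCard n K, ∏ x ∈ t, (z * v x) := by
          rw [mul_sum]
          apply sum_congr rfl
          intro t ht
          rw [prod_mul_distrib, prod_const, (mem_powersetCard.1 ht).2]
      _ ≤ ∑ t ∈ K.powerset, ∏ x ∈ t, (z * v x) := by
          apply sum_le_sum_of_subset_of_nonneg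
          · intro t ht; exact mem_powerset.2 (mem_powersetCard.1 ht).1
          · intro t ht _
            exact prod_nonneg (fun x hx => mul_nonneg hz0.le (hv x (mem_powerset.1 ht hx)))
      _ = ∏ x ∈ K, (1 + z * v x) := (prod_one_add K).symm
      _ ≤ ∏ x ∈ K, Real.exp (z * v x) := by
          apply prod_le_prod
          · intro x hx; have := mul_nonneg hz0.le (hv x hx); linarith
          · intro x _; rw [add_comm]; exact Real.add_one_le_exp _
      _ = Real.exp (z * ∑ x ∈ K, v x) := by rw [← Real.exp_sum, mul_sum]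
      _ ≤ Real.exp (n * 1) := by
          apply Real.exp_le_exp.2
          calc z * ∑ x ∈ K, v x ≤ z * S := by gcongr
            _ = n * 1 := by rw [hz]; field_simp
      _ = Real.exp 1 ^ n := Real.exp_nat_mul 1 n
      _ ≤ 3 ^ n := pow_le_pow_left₀ (Real.exp_pos 1).le
          (Real.exp_one_lt_d9.le.trans (by norm_num)) n
  have h2 : (3 * S / n) ^ n = 3 ^ n / z ^ n := by
    rw [← div_pow]; congr 1; rw [hz]; field_simp
  rw [h2, le_div_iff₀ (by positivity), mul_comm]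
  exact h1

lemma types_le (J N : ℕ) :
    ∑ n ∈ (Fintype.piFinset (fun _ : Fin J => range (N + 1))).erase 0,
      ∏ i : Fin J, ((1 / 2 : ℝ) ^ (i : ℕ) / 16) ^ n i ≤ 1 / 3 := by
  have h0 : (0 : Fin J → ℕ) ∈ Fintype.piFinset (fun _ : Fin J => range (N + 1)) := by simp
  have h1 := add_sum_erase _ (fun n : Fin J → ℕ => ∏ i : Fin J, ((1 / 2 : ℝ) ^ (i : ℕ) / 16) ^ n i)
    h0
  rw [← prod_univ_sum (fun _ : Fin J => range (N + 1))
    (fun i k => ((1 / 2 : ℝ) ^ (i : ℕ) / 16) ^ k)] at h1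
  simp only [Pi.zero_apply, pow_zero, prod_const_one] at h1
  have h2 : ∏ i : Fin J, ∑ k ∈ range (N + 1), ((1 / 2 : ℝ) ^ (i : ℕ) / 16) ^ k ≤
      ∏ i : Fin J, (1 + 2 * ((1 / 2 : ℝ) ^ (i : ℕ) / 16)) := by
    apply prod_le_prod
    · intros; positivity
    · intro i _
      set r : ℝ := (1 / 2 : ℝ) ^ (i : ℕ) / 16 with hr
      have hr0 : 0 < r := by positivity
      have hr1 : r ≤ 1 / 16 := by
        have : (1 / 2 : ℝ) ^ (i : ℕ) ≤ 1 := pow_le_one₀ (by norm_num) (by norm_num)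
        rw [hr]; linarith
      have h3 := mul_neg_geom_sum r (N + 1)
      have h4 : 0 ≤ r ^ (N + 1) := by positivity
      by_contra hc
      push Not at hc
      nlinarith
  have h3 := Real.prod_one_add_le_exp_sum (univ : Finset (Fin J))
    (f := fun i => 2 * ((1 / 2 : ℝ) ^ (i : ℕ) / 16)) (fun i => by positivity)
  have h4 : ∑ i : Fin J, 2 * ((1 / 2 : ℝ) ^ (i : ℕ) / 16) ≤ 1 / 4 := by
    have := sum_geometric_two_le J
    rw [sum_range] at this
    rw [← mul_sum, ← sum_div]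
    linarith
  have h5 : Real.exp (1 / 4) ≤ 1 / (1 - 1 / 4) :=
    Real.exp_bound_div_one_sub_of_interval (by norm_num) (by norm_num)
  have h6 := Real.exp_le_exp.2 h4
  norm_num at h5
  linarith

def ty (R : ℕ) (a : X → ℕ) (t : Finset X) : Fin R → ℕ :=
  fun i => (t.filter (fun x => a x = i)).card

def dec {R : ℕ} (m : Fin R → ℕ) (s : ℕ) : ℕ := ∑ i : Fin R, if (i : ℕ) < s then m i else 0

omit [Fintype X] [DecidableEq X] in
lemma prod_ty {R : ℕ} {a : X → ℕ} {t : Finset X} (h : ∀ x ∈ t, a x < R) (f : ℕ → ℝ) :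
    ∏ x ∈ t, f (a x) = ∏ i : Fin R, f i ^ ty R a t i := by
  rw [← prod_fiberwise_of_maps_to' (t := range R) (fun x hx => mem_range.2 (h x hx)) f,
    prod_range]
  simp [ty]

omit [Fintype X] [DecidableEq X] in
lemma dec_ty {R : ℕ} {a : X → ℕ} {t : Finset X} (h : ∀ x ∈ t, a x < R) (s : ℕ) :
    dec (ty R a t) s = prof t a s := by
  unfold dec prof
  rw [card_eq_sum_card_fiberwise (f := a) (t := range R)
    (fun x hx => mem_coe.2 (mem_range.2 (h x (mem_filter.1 (mem_coe.1 hx)).1))), sum_range]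
  apply sum_congr rfl
  intro j _
  rw [filter_filter]
  split_ifs with hj
  · unfold ty
    congr 1
    apply filter_congr
    intro x _
    constructor
    · exact fun h => ⟨h ▸ hj, h⟩
    · exact fun h => h.2
  · symm
    rw [card_eq_zero, filter_eq_empty_iff]
    rintro x _ ⟨h1, h2⟩
    exact hj (h2 ▸ h1)

lemma dec_succ {R : ℕ} (m : Fin R → ℕ) (i : Fin R) : dec m (i + 1) = dec m i + m i := by
  unfold dec
  have : m i = ∑ k : Fin R, if k = i then m k else 0 := by simp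
  rw [this, ← sum_add_distrib]
  apply sum_congr rfl
  intro k _
  by_cases h : k = i
  · subst h; simp
  · have : (k : ℕ) ≠ i := fun h' => h (Fin.ext h')
    rw [if_neg h]
    split_ifs <;> omega

lemma dec_inj {R : ℕ} {m m' : Fin R → ℕ} (h : ∀ s, dec m s = dec m' s) : m = m' := by
  ext i
  have h1 := dec_succ m i
  have h2 := dec_succ m' i
  rw [h, h] at h1
  omega

lemma dec_le {R : ℕ} (m : Fin R → ℕ) (s : ℕ) : dec m s ≤ ∑ i, m i :=
  sum_le_sum (fun i _ => by split_ifs <;> omega)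

lemma dec_top {R : ℕ} (m : Fin R → ℕ) : dec m R = ∑ i, m i :=
  sum_congr rfl (fun i _ => if_pos i.2)

end Vale.Agent.P064
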