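import Vale.Agent.P064.Step

/-! From the orbit expectation threshold to spread. -/

namespace Vale.Agent.P064

open Finset
open scoped Pointwise

noncomputable def piA (R : ℕ) (i : ℕ) : ℝ :=
  if i < R then (1 / 16) ^ R * 16 ^ i else 1 - ∑ k ∈ range R, (1 / 16 : ℝ) ^ R * 16 ^ k

lemma sum_head_le (R : ℕ) : ∑ k ∈ range R, (1 / 16 : ℝ) ^ R * 16 ^ k ≤ 1 := by
  rw [← mul_sum]
  have h1 : ∑ k ∈ range R, (16 : ℝ) ^ k ≤ 16 ^ R := by
    induction R with
    | zero => simp
    | succ J ih =>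
      rw [sum_range_succ, pow_succ]
      have : (0 : ℝ) ≤ 16 ^ J := by positivity
      linarith
  calc _ ≤ (1 / 16) ^ R * (16 : ℝ) ^ R := by gcongr
    _ = 1 := by rw [← mul_pow]; norm_num

lemma piA_nonneg (R i : ℕ) : 0 ≤ piA R i := by
  unfold piA
  split_ifs
  · positivity
  · linarith [sum_head_le R]

lemma piA_sum (R : ℕ) : ∑ i ∈ range (R + 1), piA R i = 1 := by
  rw [sum_range_succ, sum_congr rfl (g := fun k => (1 / 16 : ℝ) ^ R * 16 ^ k)
    (fun i hi => by unfold piA; rw [if_pos (mem_range.1 hi)])]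
  unfold piA
  rw [if_neg (lt_irrefl R)]
  ring

lemma piA_moment (R : ℕ) : ∑ i ∈ range (R + 1), piA R i * (1 / 32) ^ i ≤ 3 * (1 / 16) ^ R := by
  rw [sum_range_succ, sum_congr rfl (g := fun k => (1 / 2 : ℝ) ^ k * (1 / 16) ^ R) (fun i hi => by
    unfold piA
    rw [if_pos (mem_range.1 hi)]
    have : (1 / 2 : ℝ) ^ i = 16 ^ i * (1 / 32) ^ i := by rw [← mul_pow]; norm_num
    rw [this]; ring), ← sum_mul]
  have h1 := sum_geometric_two_le R
  have h2 : piA R R ≤ 1 := by
    unfold piA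
    rw [if_neg (lt_irrefl R)]
    have : 0 ≤ ∑ k ∈ range R, (1 / 16 : ℝ) ^ R * 16 ^ k := by positivity
    linarith
  have h3 : (1 / 32 : ℝ) ^ R ≤ (1 / 16) ^ R := pow_le_pow_left₀ (by norm_num) (by norm_num) R
  have h4 : (0 : ℝ) ≤ (1 / 32) ^ R := by positivity
  have h5 : (0 : ℝ) ≤ (1 / 16) ^ R := by positivity
  nlinarith

lemma pow_ge (T t : ℕ) : 1 + (T : ℝ) - t ≤ 32 ^ T * (1 / 32) ^ t := by
  rcases le_or_gt t T with h | h
  · obtain ⟨k, rfl⟩ := Nat.exists_eq_add_of_le h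
    have h2 : (32 : ℝ) ^ t * (1 / 32) ^ t = 1 := by rw [← mul_pow]; norm_num
    have h3 : (32 : ℝ) ^ (t + k) * (1 / 32) ^ t = 32 ^ k := by
      rw [pow_add]
      linear_combination (32 ^ k) * h2
    have h5 : 1 + (k : ℝ) * 31 ≤ (1 + 31) ^ k := one_add_mul_le_pow (by norm_num) k
    have h7 : (0 : ℝ) ≤ k := Nat.cast_nonneg k
    rw [h3]
    norm_num at h5
    push_cast
    linarith
  · have h1 : (T : ℝ) + 1 ≤ t := by exact_mod_cast h
    have h2 : (0 : ℝ) ≤ 32 ^ T * (1 / 32) ^ t := by positivity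
    linarith

variable {Γ X : Type} [Group Γ] [Fintype Γ] [DecidableEq Γ] [Fintype X] [DecidableEq X]
  [MulAction Γ X]

omit [Fintype X] [DecidableEq X] in
lemma layer (H : Finset X) (l : X → ℕ) {M : ℕ} (hM : ∀ x ∈ H, l x ≤ M) (f : X → ℝ) :
    ∑ x ∈ H, l x * f x = ∑ θ ∈ range M, ∑ x ∈ H.filter (fun x => θ < l x), f x := by
  simp only [sum_filter]
  rw [sum_comm]
  apply sum_congr rfl
  intro x hx
  rw [← sum_filter]
  have : (range M).filter (fun i => i < l x) = range (l x) := by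
    ext i
    have := hM x hx
    simp only [mem_filter, mem_range]
    omega
  rw [this]; simp

def levOf (H : Finset X) (l : X → ℕ) (x : X) : ℕ :=
  Nat.clog 4 (H.filter (fun y => l x ≤ l y)).card

omit [Fintype X] [DecidableEq X] in
lemma levOf_card (H : Finset X) (l : X → ℕ) (i : ℕ) :
    (H.filter (fun x => levOf H l x ≤ i)).card ≤ 4 ^ i := by
  rcases (H.filter (fun x => levOf H l x ≤ i)).eq_empty_or_nonempty with h | h
  · rw [h]; simp
  obtain ⟨x, hx, hmin⟩ := exists_min_image _ l h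
  have h1 := (Nat.clog_le_iff_le_pow (by norm_num)).1 (mem_filter.1 hx).2
  refine le_trans (card_le_card (fun y hy => ?_)) h1
  exact mem_filter.2 ⟨(mem_filter.1 hy).1, hmin y hy⟩

lemma pow_clog_le {r : ℕ} (hr : 0 < r) : 4 ^ Nat.clog 4 r ≤ 4 * r := by
  rcases Nat.lt_or_ge 1 r with h | h
  · have h1 := Nat.pow_pred_clog_lt_self (b := 4) (by norm_num) h
    have h2 := Nat.clog_pos (b := 4) (by norm_num) h
    obtain ⟨k, hk⟩ := Nat.exists_eq_succ_of_ne_zero h2.ne'
    rw [hk] at h1 ⊢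
    simp only [Nat.pred_succ, Nat.succ_eq_add_one, pow_succ] at h1 ⊢
    omega
  · have : r = 1 := by omega
    subst this; simp

omit [Fintype X] [DecidableEq X] in
lemma avg_le (H : Finset X) (l : X → ℕ) {a : X → ℕ} {R : ℕ} (ha : ∀ x, a x ≤ R)
    (h : ∀ i s, 1 ≤ s → (cnt H (levOf H l) a i s : ℝ) ≤ 3 * 4 ^ i * (1 / 2) ^ s) :
    ∑ x ∈ H, (l x : ℝ) * a x ≤ 12 * ∑ x ∈ H, (l x : ℝ) * 1 := by
  have hM : ∀ x ∈ H, l x ≤ H.sup l := fun x hx => le_sup hx
  rw [layer H l hM, layer H l hM, mul_sum]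
  apply sum_le_sum
  intro θ _
  set L := H.filter (fun x => θ < l x) with hL
  rcases L.eq_empty_or_nonempty with h0 | h0
  · rw [h0]; simp
  have h1 := layer L a (M := R) (fun x _ => ha x) (fun _ => 1)
  simp only [mul_one, sum_const, nsmul_eq_mul] at h1 ⊢
  rw [h1]
  have h2 : (4 : ℝ) ^ Nat.clog 4 L.card ≤ 4 * L.card := by
    exact_mod_cast pow_clog_le h0.card_pos
  calc _ ≤ ∑ s ∈ range R, (1 / 2 : ℝ) ^ s * (6 * L.card) := by
        apply sum_le_sum
        intro s _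
        have h3 : (L.filter (fun x => s < a x)).card ≤
            cnt H (levOf H l) a (Nat.clog 4 L.card) (s + 1) := by
          apply card_le_card
          intro x hx
          obtain ⟨hx1, hx2⟩ := mem_filter.1 hx
          obtain ⟨hx3, hx4⟩ := mem_filter.1 hx1
          refine mem_filter.2 ⟨hx3, Nat.clog_mono_right _ (card_le_card (fun y hy => ?_)), hx2⟩
          exact mem_filter.2 ⟨(mem_filter.1 hy).1, hx4.trans_le (mem_filter.1 hy).2⟩
        have h4 : ((L.filter (fun x => s < a x)).card : ℝ) ≤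
            cnt H (levOf H l) a (Nat.clog 4 L.card) (s + 1) := by exact_mod_cast h3
        have h5 := h (Nat.clog 4 L.card) (s + 1) (by omega)
        have h6 : (0 : ℝ) ≤ (1 / 2) ^ s := by positivity
        rw [pow_succ] at h5
        nlinarith
    _ = (∑ s ∈ range R, (1 / 2 : ℝ) ^ s) * (6 * L.card) := by rw [sum_mul]
    _ ≤ 2 * (6 * L.card) := by gcongr; exact sum_geometric_two_le R
    _ = _ := by ring

omit [Fintype Γ] [DecidableEq Γ] [Fintype X] in
lemma double_count {H F : Finset X} (C : Finset Γ) (hC : ∀ k ∈ C, k • F ⊆ H) (f : X → ℝ) :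
    ∑ x ∈ H, ((C.filter (fun k => x ∈ k • F)).card : ℝ) * f x = ∑ k ∈ C, ∑ y ∈ F, f (k • y) := by
  simp only [card_filter, Nat.cast_sum, sum_mul]
  rw [sum_comm]
  apply sum_congr rfl
  intro k hk
  simp only [Nat.cast_ite, Nat.cast_one, Nat.cast_zero, ite_mul, one_mul, zero_mul]
  rw [sum_ite_mem, inter_eq_right.2 (hC k hk), smul_finset_def,
    sum_image (fun x _ y _ h => MulAction.injective k h)]

lemma moment {R : ℕ} {π : ℕ → ℝ} (h0 : ∀ i, 0 ≤ π i) (h1 : ∑ i ∈ range (R + 1), π i = 1)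
    {f : ℕ → ℝ} (hf : ∀ i, 0 ≤ f i) {p : ℝ} (hp : ∑ i ∈ range (R + 1), π i * f i ≤ p)
    (F : Finset X) : ∑ c ∈ Om X R, wt π c * ∏ y ∈ F, f (c y) ≤ p ^ F.card := by
  have h2 : ∀ c : X → ℕ, wt π c * ∏ y ∈ F, f (c y) =
      ∏ x, (π (c x) * if x ∈ F then f (c x) else 1) := by
    intro c
    rw [prod_mul_distrib (s := univ), prod_ite_mem, univ_inter, wt]
  simp only [h2]
  unfold Om
  rw [← prod_univ_sum (fun _ : X => range (R + 1)) (fun x i => π i * if x ∈ F then f i else 1)]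
  have h3 : p ^ F.card = ∏ x, if x ∈ F then p else 1 := by
    rw [prod_ite_mem, univ_inter, prod_const]
  rw [h3]
  apply prod_le_prod
  · intro x _
    apply sum_nonneg
    intro i _
    apply mul_nonneg (h0 i)
    split_ifs
    · exact hf i
    · exact zero_le_one
  · intro x _
    split_ifs
    · exact hp
    · simp [h1]

theorem frac {H : Finset X} {q : ℝ} (hq : 0 < q)
    (hH : ∀ U ⊆ H, U.Nonempty →
      ((stab (univ : Finset Γ) U).card : ℝ) ≤ 2 * Fintype.card Γ * q ^ U.card) (F : Finset X) :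
    ((univ.filter (fun k : Γ => k • F ⊆ H)).card : ℝ) ≤
      Fintype.card Γ * (2 ^ 90 * q) ^ F.card := by
  classical
  set C := univ.filter (fun k : Γ => k • F ⊆ H) with hC
  have hΓ : (0 : ℝ) ≤ Fintype.card Γ := Nat.cast_nonneg _
  have hCΓ : (C.card : ℝ) ≤ Fintype.card Γ := by exact_mod_cast card_le_univ C
  rcases Nat.eq_zero_or_pos F.card with he | he
  · rw [he]; simpa using hCΓ
  rcases le_or_gt (2 ^ 23 * q) 1 with hq1 | hq1
  swap
  · have : (1 : ℝ) ≤ (2 ^ 90 * q) ^ F.card := one_le_pow₀ (by nlinarith)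
    nlinarith
  obtain ⟨R, hR1, hR2⟩ := exists_nat_pow_near_of_lt_one (x := 2 ^ 23 * q) (y := 1 / 16)
    (by positivity) hq1 (by norm_num) (by norm_num)
  set l : X → ℕ := fun x => (C.filter (fun k => x ∈ k • F)).card with hl
  have h2 := selector hq hR2 hH (levOf_card H l) (piA_nonneg R) (piA_sum R)
    (fun s hs => by unfold piA; rw [if_pos hs])
  set Y : (X → ℕ) → ℝ := fun c => ∑ k : Γ, ∏ y ∈ F, (1 / 32 : ℝ) ^ c (k • y) with hY
  have hY0 : ∀ c, 0 ≤ Y c := fun c => sum_nonneg (fun k _ => by positivity)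
  have h3 : ∀ c ∈ Om X R, Ev H (levOf H l) 0 ∅ (univ : Finset Γ) c →
      (C.card : ℝ) ≤ 32 ^ (12 * F.card) * Y c := by
    rintro c hc ⟨g, -, hg⟩
    have h4 := avg_le H l (a := c ∘ fun y => g • y) (R := R) (fun x => mem_Om.1 hc _)
      (fun i s hs => by
        have := hg i s hs
        rw [sdiff_empty] at this
        exact this.trans (tll_le _ _ _))
    have hCF : ∀ k ∈ C, k • F ⊆ H := fun k hk => (mem_filter.1 hk).2
    rw [double_count C hCF, double_count C hCF] at h4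
    simp only [sum_const, nsmul_eq_mul, mul_one, Function.comp] at h4
    have h5 : ∑ k ∈ C, (1 + ((12 * F.card : ℕ) : ℝ) - ((∑ y ∈ F, c (g • k • y) : ℕ) : ℝ)) ≤
        ∑ k ∈ C, 32 ^ (12 * F.card) * (1 / 32) ^ (∑ y ∈ F, c (g • k • y)) :=
      sum_le_sum (fun k _ => pow_ge _ _)
    rw [sum_sub_distrib, sum_const, nsmul_eq_mul, ← mul_sum] at h5
    push_cast at h5
    have h6 : ∑ k ∈ C, (1 / 32 : ℝ) ^ (∑ y ∈ F, c (g • k • y)) ≤ Y c := by
      calc _ ≤ ∑ k : Γ, (1 / 32 : ℝ) ^ (∑ y ∈ F, c (g • k • y)) :=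
            sum_le_sum_of_subset_of_nonneg (subset_univ _) (fun _ _ _ => by positivity)
        _ = _ := by
            rw [hY]
            simp only
            rw [← Equiv.sum_comp (Equiv.mulLeft g) (fun k => ∏ y ∈ F, (1 / 32 : ℝ) ^ c (k • y))]
            apply sum_congr rfl
            intro k _
            rw [prod_pow_eq_pow_sum]
            simp [mul_smul]
    have h7 := mul_le_mul_of_nonneg_left h6 (by positivity : (0 : ℝ) ≤ 32 ^ (12 * F.card))
    nlinarith
  have h4 : ∑ c ∈ Om X R, wt (piA R) c * Y c ≤ Fintype.card Γ * (3 * (1 / 16) ^ R) ^ F.card := by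
    simp only [hY, mul_sum]
    rw [sum_comm, ← card_univ, ← nsmul_eq_mul, ← sum_const]
    apply sum_le_sum
    intro k _
    have := sum_comp (R := R) (piA R) (MulAction.toPerm k)
      (fun c => ∏ y ∈ F, (1 / 32 : ℝ) ^ c y)
    refine le_trans (le_of_eq this) ?_
    exact moment (piA_nonneg R) (piA_sum R) (f := fun i => (1 / 32 : ℝ) ^ i)
      (fun i => by positivity) (piA_moment R) F
  have h5 : C.card * Pr (piA R) R (Ev H (levOf H l) 0 ∅ (univ : Finset Γ)) ≤
      32 ^ (12 * F.card) * ∑ c ∈ Om X R, wt (piA R) c * Y c := by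
    unfold Pr
    rw [mul_sum, mul_sum]
    apply sum_le_sum
    intro c hc
    have h6 := wt_nonneg (piA_nonneg R) c
    split_ifs with h
    · have := mul_le_mul_of_nonneg_right (h3 c hc h) h6
      linarith
    · have := hY0 c
      rw [mul_zero]; positivity
  have h6 : (C.card : ℝ) * (1 / 2) ≤
      32 ^ (12 * F.card) * (Fintype.card Γ * (3 * (1 / 16) ^ R) ^ F.card) :=
    (mul_le_mul_of_nonneg_left h2 (Nat.cast_nonneg _)).trans
      (h5.trans (mul_le_mul_of_nonneg_left h4 (by positivity)))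
  have h7 : (2 : ℝ) * (32 ^ (12 * F.card) * (3 * (1 / 16) ^ R) ^ F.card) ≤
      (2 ^ 90 * q) ^ F.card := by
    have h8 : (2 : ℝ) ≤ 2 ^ F.card := le_self_pow₀ (by norm_num) he.ne'
    calc (2 : ℝ) * (32 ^ (12 * F.card) * (3 * (1 / 16) ^ R) ^ F.card)
        ≤ 2 ^ F.card * (32 ^ (12 * F.card) * (3 * (1 / 16) ^ R) ^ F.card) := by gcongr
      _ = (2 * (32 ^ 12 * (3 * (1 / 16) ^ R))) ^ F.card := by
          rw [pow_mul, ← mul_pow, ← mul_pow]
      _ ≤ (2 ^ 90 * q) ^ F.card := by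
          apply pow_le_pow_left₀ (by positivity)
          rw [pow_succ] at hR1
          linarith
  have h8 := mul_le_mul_of_nonneg_left h7 hΓ
  generalize (3 * (1 / 16 : ℝ) ^ R) ^ F.card = u at h6 h8
  generalize (2 ^ 90 * q) ^ F.card = w at h8 ⊢
  generalize (32 : ℝ) ^ (12 * F.card) = z at h6 h8
  linarith

end Vale.Agent.P064
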