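import Vale.Agent.P064.KK
import Vale.Agent.P064.Defs

/-! Translation to random graphs. -/

namespace Vale.Agent.P064

open Finset MeasureTheory SimpleGraph
open scoped Pointwise

def Edge (n : ℕ) : Type := {e : Sym2 (Fin n) // ¬ e.IsDiag}

instance (n : ℕ) : Fintype (Edge n) := inferInstanceAs (Fintype {e : Sym2 (Fin n) // ¬ e.IsDiag})

instance (n : ℕ) : DecidableEq (Edge n) :=
  inferInstanceAs (DecidableEq {e : Sym2 (Fin n) // ¬ e.IsDiag})

instance (n : ℕ) : MulAction (Equiv.Perm (Fin n)) (Edge n) where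
  smul σ e := ⟨e.1.map σ, fun h => e.2 ((Sym2.isDiag_map σ.injective).1 h)⟩
  one_smul e := Subtype.ext (by
    show e.1.map (1 : Equiv.Perm (Fin n)) = e.1
    simp)
  mul_smul a b e := Subtype.ext (by
    show e.1.map (a * b : Equiv.Perm (Fin n)) = (e.1.map b).map a
    rw [Sym2.map_map]; rfl)

variable {n : ℕ}

lemma smul_val (σ : Equiv.Perm (Fin n)) (e : Edge n) : (σ • e).1 = e.1.map σ := rfl

lemma card_Edge : Fintype.card (Edge n) = n.choose 2 := by
  have := Sym2.card_subtype_not_diag (α := Fin n)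
  rw [Fintype.card_fin] at this
  exact this

open Classical in
noncomputable def eds (G : SimpleGraph (Fin n)) : Finset (Edge n) :=
  univ.filter (fun e => e.1 ∈ G.edgeSet)

lemma mem_eds {G : SimpleGraph (Fin n)} {e : Edge n} : e ∈ eds G ↔ e.1 ∈ G.edgeSet := by
  simp [eds]

lemma eds_bij : Function.Bijective (eds (n := n)) := by
  constructor
  · intro G G' h
    apply edgeSet_injective
    ext e
    constructor
    · intro he
      have : (⟨e, G.not_isDiag_of_mem_edgeSet he⟩ : Edge n) ∈ eds G := mem_eds.2 he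
      rw [h] at this
      exact mem_eds.1 this
    · intro he
      have : (⟨e, G'.not_isDiag_of_mem_edgeSet he⟩ : Edge n) ∈ eds G' := mem_eds.2 he
      rw [← h] at this
      exact mem_eds.1 this
  · intro S
    refine ⟨fromEdgeSet ((fun e : Edge n => e.1) '' S), ?_⟩
    ext e
    rw [mem_eds, edgeSet_fromEdgeSet]
    constructor
    · rintro ⟨⟨e', he', h⟩, -⟩
      have : e' = e := Subtype.ext h
      exact this ▸ he'
    · intro he
      exact ⟨⟨e, he, rfl⟩, e.2⟩

lemma card_eds (G : SimpleGraph (Fin n)) : G.edgeSet.ncard = (eds G).card := by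
  have : G.edgeSet = (fun e : Edge n => e.1) '' (eds G) := by
    ext e
    constructor
    · intro he
      exact ⟨⟨e, G.not_isDiag_of_mem_edgeSet he⟩, mem_eds.2 he, rfl⟩
    · rintro ⟨e', he', rfl⟩
      exact mem_eds.1 he'
  rw [this, Set.ncard_image_of_injective (f := fun e : Edge n => e.1) _ Subtype.val_injective,
    Set.ncard_coe_finset]

lemma msc : MeasurableSingletonClass (SimpleGraph (Fin n)) where
  measurableSet_singleton G := by
    have : ({G} : Set (SimpleGraph (Fin n))) = edgeSet ⁻¹' {G.edgeSet} := by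
      ext G'; simp
    rw [this]
    exact measurable_edgeSet (measurableSet_singleton _)

noncomputable def bw (p : ℝ) (S : Finset (Edge n)) : ℝ :=
  p ^ S.card * (1 - p) ^ (Fintype.card (Edge n) - S.card)

lemma real_single {p : ℝ} (hp : p ∈ unitInterval) (G : SimpleGraph (Fin n)) :
    (binomialRandom (Fin n) ⟨p, hp⟩).real {G} = bw p (eds G) := by
  rw [measureReal_def, binomialRandom_singleton, card_eds, bw, card_Edge]
  simp

lemma integral_eq {p : ℝ} (hp : p ∈ unitInterval) (f : SimpleGraph (Fin n) → ℝ) :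
    ∫ G, f G ∂(binomialRandom (Fin n) ⟨p, hp⟩) = ∑ G, bw p (eds G) * f G := by
  have := msc (n := n)
  rw [integral_fintype Integrable.of_finite]
  simp only [real_single, smul_eq_mul]

open Classical in
lemma real_eq {p : ℝ} (hp : p ∈ unitInterval) (E : Set (SimpleGraph (Fin n))) :
    (binomialRandom (Fin n) ⟨p, hp⟩).real E = ∑ G, if G ∈ E then bw p (eds G) else 0 := by
  have := msc (n := n)
  rw [← integral_indicator_one (Set.toFinite E).measurableSet, integral_eq]
  apply sum_congr rfl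
  intro G _
  by_cases h : G ∈ E <;> simp [h]

lemma bw_sub (p : ℝ) (T : Finset (Edge n)) :
    ∑ S : Finset (Edge n), (if T ⊆ S then bw p S else 0) = p ^ T.card := by
  have h := prod_add (fun _ : Edge n => p) (fun x => if x ∈ T then 0 else 1 - p) univ
  rw [powerset_univ] at h
  have h1 : ∏ x : Edge n, (p + if x ∈ T then 0 else 1 - p) = p ^ T.card := by
    rw [prod_congr rfl (g := fun x => if x ∈ T then p else 1)
      (fun x _ => by split_ifs <;> ring), prod_ite_mem, univ_inter, prod_const]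
  rw [← h1, h]
  apply sum_congr rfl
  intro S _
  split_ifs with hS
  · rw [prod_congr rfl (s₂ := univ \ S) (g := fun _ => 1 - p)
      (fun x hx => if_neg (fun h => (mem_sdiff.1 hx).2 (hS h))), prod_const, prod_const, bw,
      card_sdiff_of_subset (subset_univ _), card_univ]
  · obtain ⟨x, hx1, hx2⟩ := not_subset.1 hS
    rw [prod_eq_zero (f := fun x => if x ∈ T then 0 else 1 - p) (mem_sdiff.2 ⟨mem_univ _, hx2⟩)
      (if_pos hx1), mul_zero]

variable {V : Type}

lemma contained {H : SimpleGraph V} (ι : V ↪ Fin n) (σ : Equiv.Perm (Fin n))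
    {G : SimpleGraph (Fin n)} (h : σ • eds (H.map ι) ⊆ eds G) : 0 < G.copyCount H := by
  rw [copyCount_pos]
  refine ⟨⟨⟨fun v => σ (ι v), fun {u v} huv => ?_⟩, σ.injective.comp ι.injective⟩⟩
  have h1 : s(ι u, ι v) ∈ (H.map ι).edgeSet := by simpa using huv
  have h2 : (⟨s(ι u, ι v), (H.map ι).not_isDiag_of_mem_edgeSet h1⟩ : Edge n) ∈ eds (H.map ι) :=
    mem_eds.2 h1
  exact mem_eds.1 (h (smul_mem_smul_finset h2))

/-- the subgraph of `H` with a given edge set and no isolated vertices -/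
def subOf (H : SimpleGraph V) (ι : V ↪ Fin n) (U : Finset (Edge n)) (hU : U ⊆ eds (H.map ι)) :
    H.Subgraph where
  verts := {u | ∃ v, ∃ e ∈ U, e.1 = s(ι u, ι v)}
  Adj u v := ∃ e ∈ U, e.1 = s(ι u, ι v)
  adj_sub := by
    rintro u v ⟨e, he, h⟩
    have := mem_eds.1 (hU he)
    rw [h] at this
    simpa using this
  edge_vert := fun {_ v} h => ⟨v, h⟩
  symm := ⟨by
    rintro u v ⟨e, he, h⟩
    exact ⟨e, he, h.trans Sym2.eq_swap⟩⟩

lemma copy_perm [Finite V] {H : SimpleGraph V} (ι : V ↪ Fin n) {U : Finset (Edge n)}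
    (hU : U ⊆ eds (H.map ι)) {G : SimpleGraph (Fin n)} (G' : G.Subgraph)
    (φ : (subOf H ι U hU).coe ≃g G'.coe) :
    (∀ x ∈ G'.verts, ∃ y, G'.Adj x y) ∧
      ∃ σ : Equiv.Perm (Fin n), σ • U = eds G'.spanningCoe := by
  constructor
  · intro x hx
    obtain ⟨⟨u, hu⟩, h⟩ := φ.surjective ⟨x, hx⟩
    obtain ⟨v, hv⟩ := hu
    have huv : (subOf H ι U hU).Adj u v := hv
    have h1 : (subOf H ι U hU).coe.Adj ⟨u, huv.fst_mem⟩ ⟨v, huv.snd_mem⟩ := huv
    have h2 := φ.map_rel_iff.2 h1
    refine ⟨φ ⟨v, huv.snd_mem⟩, ?_⟩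
    have h3 : (φ ⟨u, huv.fst_mem⟩ : Fin n) = x := congrArg Subtype.val h
    rw [← h3]
    exact h2
  · obtain ⟨σ, hσ⟩ := Equiv.Perm.exists_extending_pair
      (fun a : (subOf H ι U hU).verts => ι a) (fun a => (φ a : Fin n))
      (ι.injective.comp Subtype.val_injective) (Subtype.val_injective.comp φ.injective)
    refine ⟨σ, ?_⟩
    ext e
    rw [mem_eds, mem_smul_finset]
    constructor
    · rintro ⟨e', he', rfl⟩
      have h1 := mem_eds.1 (hU he')
      rw [edgeSet_map] at h1
      obtain ⟨z, -, hz⟩ := h1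
      induction z with
      | h u v =>
        have huv : (subOf H ι U hU).Adj u v := ⟨e', he', hz.symm⟩
        have h1 : (subOf H ι U hU).coe.Adj ⟨u, huv.fst_mem⟩ ⟨v, huv.snd_mem⟩ := huv
        have h2 := φ.map_rel_iff.2 h1
        have h3 : e'.1 = s(ι u, ι v) := hz.symm
        rw [smul_val, h3, Sym2.map_mk, hσ ⟨u, huv.fst_mem⟩, hσ ⟨v, huv.snd_mem⟩]
        exact h2
    · obtain ⟨z, hz⟩ := e
      induction z with
      | h x y =>
        intro hxy
        have h0 : G'.Adj x y := hxy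
        obtain ⟨a, ha⟩ := φ.surjective ⟨x, h0.fst_mem⟩
        obtain ⟨b, hb⟩ := φ.surjective ⟨y, h0.snd_mem⟩
        have h1 : G'.coe.Adj (φ a) (φ b) := by
          rw [ha, hb]; exact h0
        obtain ⟨e', he', h2⟩ : (subOf H ι U hU).Adj a b := φ.map_rel_iff.1 h1
        refine ⟨e', he', Subtype.ext ?_⟩
        rw [smul_val, h2, Sym2.map_mk, hσ a, hσ b, ha, hb]

lemma copy_mul_stab [Finite V] {H : SimpleGraph V} (ι : V ↪ Fin n) {U : Finset (Edge n)}
    (hU : U ⊆ eds (H.map ι)) (G : SimpleGraph (Fin n)) :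
    G.copyCount (subOf H ι U hU).coe * (stab (univ : Finset (Equiv.Perm (Fin n))) U).card ≤
      (univ.filter (fun σ : Equiv.Perm (Fin n) => σ • U ⊆ eds G)).card := by
  classical
  obtain ⟨Cp, hCp, hmem⟩ : ∃ Cp : Finset G.Subgraph, G.copyCount (subOf H ι U hU).coe = Cp.card ∧
      ∀ G' ∈ Cp, Nonempty ((subOf H ι U hU).coe ≃g G'.coe) := by
    unfold copyCount
    exact ⟨_, rfl, fun G' h => by simpa using h⟩
  rw [hCp]
  have hC : ∀ G' ∈ Cp, (∀ x ∈ G'.verts, ∃ y, G'.Adj x y) ∧
      ∃ σ : Equiv.Perm (Fin n), σ • U = eds G'.spanningCoe :=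
    fun G' hG' => copy_perm ι hU G' (hmem G' hG').some
  choose! τ hτ using fun G' hG' => (hC G' hG').2
  rw [← card_product]
  apply card_le_card_of_injOn (fun z => τ z.1 * z.2)
  · rintro ⟨G', k⟩ hz
    obtain ⟨h1, h2⟩ := mem_product.1 (mem_coe.1 hz)
    refine mem_coe.2 (mem_filter.2 ⟨mem_univ _, ?_⟩)
    rw [mul_smul, (mem_filter.1 h2).2, hτ G' h1]
    intro e he
    exact mem_eds.2 (edgeSet_mono G'.spanningCoe_le (mem_eds.1 he))
  · rintro ⟨G₁, k₁⟩ hz₁ ⟨G₂, k₂⟩ hz₂ h
    obtain ⟨h1, h2⟩ := mem_product.1 (mem_coe.1 hz₁)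
    obtain ⟨h3, h4⟩ := mem_product.1 (mem_coe.1 hz₂)
    have h5 : τ G₁ * k₁ = τ G₂ * k₂ := h
    have h6 : G₁.spanningCoe = G₂.spanningCoe := by
      apply eds_bij.1
      rw [← hτ G₁ h1, ← hτ G₂ h3, ← (mem_filter.1 h2).2, ← mul_smul, h5, mul_smul,
        (mem_filter.1 h2).2, (mem_filter.1 h4).2]
    have h7 : G₁.Adj = G₂.Adj := congrArg SimpleGraph.Adj h6
    have h8 : G₁ = G₂ := by
      refine Subgraph.ext ?_ h7
      ext x
      constructor
      · intro hx
        obtain ⟨y, hy⟩ := (hC G₁ h1).1 x hx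
        rw [h7] at hy
        exact hy.fst_mem
      · intro hx
        obtain ⟨y, hy⟩ := (hC G₂ h3).1 x hx
        rw [← h7] at hy
        exact hy.fst_mem
    subst h8
    rw [mul_left_cancel h5]

lemma bw_nonneg {p : ℝ} (hp : p ∈ unitInterval) (S : Finset (Edge n)) : 0 ≤ bw p S :=
  mul_nonneg (pow_nonneg hp.1 _) (pow_nonneg (sub_nonneg.2 hp.2) _)

lemma stab_le [Finite V] {H : SimpleGraph V} (ι : V ↪ Fin n) {q : ℝ} (hq : q ∈ unitInterval)
    (h : ∀ F : H.Subgraph,
      1 / 2 ≤ ∫ G, (G.copyCount F.coe : ℝ) ∂(binomialRandom (Fin n) ⟨q, hq⟩))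
    (U : Finset (Edge n)) (hU : U ⊆ eds (H.map ι)) :
    ((stab (univ : Finset (Equiv.Perm (Fin n))) U).card : ℝ) ≤
      2 * Fintype.card (Equiv.Perm (Fin n)) * q ^ U.card := by
  have h1 := h (subOf H ι U hU)
  rw [integral_eq] at h1
  have h2 := mul_le_mul_of_nonneg_right h1
    (Nat.cast_nonneg (stab (univ : Finset (Equiv.Perm (Fin n))) U).card)
  have h3 : (∑ G : SimpleGraph (Fin n), bw q (eds G) * (G.copyCount (subOf H ι U hU).coe : ℝ)) *
      (stab (univ : Finset (Equiv.Perm (Fin n))) U).card ≤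
      Fintype.card (Equiv.Perm (Fin n)) * q ^ U.card := by
    calc _ ≤ ∑ G : SimpleGraph (Fin n), ∑ σ : Equiv.Perm (Fin n),
          if σ • U ⊆ eds G then bw q (eds G) else 0 := by
          rw [sum_mul]
          apply sum_le_sum
          intro G _
          rw [← sum_filter, sum_const, nsmul_eq_mul, mul_assoc, mul_comm]
          apply mul_le_mul_of_nonneg_right _ (bw_nonneg hq _)
          exact_mod_cast copy_mul_stab ι hU G
      _ = ∑ σ : Equiv.Perm (Fin n), q ^ U.card := by
          rw [sum_comm]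
          apply sum_congr rfl
          intro σ _
          rw [← card_smul_finset σ U, ← bw_sub]
          exact Fintype.sum_bijective _ eds_bij _ _ (fun _ => rfl)
      _ = _ := by rw [sum_const, nsmul_eq_mul, card_univ]
  linarith

lemma top_count {W : Type} [Fintype W] (F : SimpleGraph W) (h : Fintype.card W ≤ n) :
    0 < (⊤ : SimpleGraph (Fin n)).copyCount F := by
  rw [copyCount_pos]
  obtain ⟨ι⟩ := Function.Embedding.nonempty_of_card_le (h.trans_eq (Fintype.card_fin n).symm)
  exact ⟨⟨⟨ι, fun {u v} huv => by simpa using huv.ne⟩, ι.injective⟩⟩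

lemma log_bound (hn : 2 ≤ n) : ∃ R : ℕ, 0 < R ∧ n.choose 2 ≤ 2 ^ R ∧ (R : ℝ) ≤ 8 * Real.log n := by
  refine ⟨2 * (Nat.log 2 n + 1), by omega, ?_, ?_⟩
  · have h1 := Nat.lt_pow_succ_log_self (b := 2) (by norm_num) n
    calc n.choose 2 ≤ n ^ 2 := Nat.choose_le_pow n 2
      _ ≤ (2 ^ (Nat.log 2 n + 1)) ^ 2 := Nat.pow_le_pow_left h1.le 2
      _ = _ := by rw [← pow_mul, mul_comm]
  · have h1 : ((2 : ℝ)) ^ Nat.log 2 n ≤ n := by
      exact_mod_cast Nat.pow_log_le_self 2 (by omega : n ≠ 0)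
    have h2 := Real.log_le_log (by positivity) h1
    rw [Real.log_pow] at h2
    have h3 : Real.log 2 ≤ Real.log n := Real.log_le_log (by norm_num) (by exact_mod_cast hn)
    have h4 := Real.log_two_gt_d9
    have h5 : (0 : ℝ) ≤ Nat.log 2 n := Nat.cast_nonneg _
    push_cast
    nlinarith

theorem main (hn : 2 ≤ n) [Fintype V] (H : SimpleGraph V) (hV : Fintype.card V ≤ n)
    (hH : H.edgeSet.Nonempty) : pc n H ≤ 2 ^ 102 * pE n H * Real.log n := by
  classical
  have := msc (n := n)
  obtain ⟨ι⟩ := Function.Embedding.nonempty_of_card_le (hV.trans_eq (Fintype.card_fin n).symm)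
  have hlog : 0 < Real.log n := Real.log_pos (by exact_mod_cast hn)
  have hbdd : BddBelow {p : ℝ | ∃ hp : p ∈ unitInterval,
      1 / 2 ≤ (binomialRandom (Fin n) ⟨p, hp⟩).real {G | 0 < G.copyCount H}} :=
    ⟨0, fun p hp => hp.1.1⟩
  have hone : pc n H ≤ 1 := by
    refine csInf_le hbdd ⟨unitInterval.one_mem, ?_⟩
    have : (⟨1, unitInterval.one_mem⟩ : unitInterval) = 1 := rfl
    rw [this, binomialRandom_one, measureReal_def,
      Measure.dirac_apply_of_mem (by exact top_count H hV)]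
    norm_num
  have key : pc n H / (2 ^ 102 * Real.log n) ≤ pE n H := by
    apply le_csInf
    · refine ⟨1, unitInterval.one_mem, fun F => ?_⟩
      have : (⟨1, unitInterval.one_mem⟩ : unitInterval) = 1 := rfl
      rw [this, binomialRandom_one, integral_dirac]
      have h1 := top_count (n := n) F.coe ((set_fintype_card_le_univ _).trans hV)
      have h2 : (1 : ℝ) ≤ (⊤ : SimpleGraph (Fin n)).copyCount F.coe := by exact_mod_cast h1
      linarith
    · rintro q ⟨hq, h⟩
      rw [div_le_iff₀ (by positivity)]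
      have h1 := stab_le ι hq h
      have hq0 : 0 < q := by
        refine lt_of_le_of_ne hq.1 ?_
        rintro rfl
        have hne : (eds (H.map ι)).Nonempty := by
          obtain ⟨e, he⟩ := hH
          have : ι.sym2Map e ∈ (H.map ι).edgeSet := by
            rw [edgeSet_map]; exact ⟨e, he, rfl⟩
          exact ⟨⟨_, (H.map ι).not_isDiag_of_mem_edgeSet this⟩, mem_eds.2 this⟩
        have h2 := h1 _ subset_rfl
        rw [zero_pow hne.card_pos.ne', mul_zero] at h2
        have h3 : 0 < (stab (univ : Finset (Equiv.Perm (Fin n))) (eds (H.map ι))).card :=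
          card_pos.2 ⟨1, mem_filter.2 ⟨mem_univ _, one_smul _ _⟩⟩
        have h4 : (0 : ℝ) < (stab (univ : Finset (Equiv.Perm (Fin n))) (eds (H.map ι))).card := by
          exact_mod_cast h3
        linarith
      rcases le_or_gt (q * (2 ^ 102 * Real.log n)) 1 with hp1 | hp1
      swap
      · exact hone.trans hp1.le
      have hp0 : 0 < q * (2 ^ 102 * Real.log n) := by positivity
      obtain ⟨R, hR0, hR1, hR2⟩ := log_bound hn
      have h2 := kk (Γ := Equiv.Perm (Fin n)) (H := eds (H.map ι)) (ρ := 2 ^ 90 * q)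
        (by positivity) (frac hq0 (fun U hU _ => h1 U hU)) hR0
        ((card_le_univ _).trans (card_Edge.trans_le hR1)) (p := q * (2 ^ 102 * Real.log n))
        (by nlinarith) hp0 hp1
      have hp : q * (2 ^ 102 * Real.log n) ∈ unitInterval := ⟨hp0.le, hp1⟩
      refine csInf_le hbdd ⟨hp, h2.trans ?_⟩
      rw [real_eq, ← Fintype.sum_bijective _ eds_bij _ _ (fun _ => rfl)]
      apply sum_le_sum
      intro G _
      split_ifs with h3 h4 h4
      · exact le_rfl
      · obtain ⟨σ, hσ⟩ := h3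
        exact absurd (contained ι σ hσ) h4
      · exact bw_nonneg hp _
      · exact le_rfl
  rw [div_le_iff₀ (by positivity)] at key
  linarith

end Vale.Agent.P064
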