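import Vale.Agent.P064.Frac

/-! From spread to the threshold, with a logarithmic loss. -/

namespace Vale.Agent.P064

open Finset
open scoped Pointwise

variable {Γ X : Type} [Group Γ] [Fintype Γ] [DecidableEq Γ] [Fintype X] [DecidableEq X]
  [MulAction Γ X]

noncomputable def piB (R : ℕ) (p : ℝ) (i : ℕ) : ℝ := if i < R then p / R else 1 - p

lemma piB_head {R : ℕ} (hR : 0 < R) (p : ℝ) : ∑ i ∈ range R, piB R p i = p := by
  rw [sum_congr rfl (g := fun _ => p / R) (fun i hi => by rw [piB, if_pos (mem_range.1 hi)])]
  have : (R : ℝ) ≠ 0 := by exact_mod_cast hR.ne'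
  simp; field_simp

lemma push {R : ℕ} (hR : 0 < R) (p : ℝ) (E : Finset X → Prop) [DecidablePred E] :
    Pr (piB R p) R (fun c => E (univ.filter (fun x => c x < R))) =
      ∑ S : Finset X, if E S then p ^ S.card * (1 - p) ^ (Fintype.card X - S.card) else 0 := by
  unfold Pr
  rw [← sum_fiberwise (s := Om X R) (g := fun c => univ.filter (fun x => c x < R))]
  apply sum_congr rfl
  intro S _
  rw [sum_congr rfl (g := fun c => if E S then wt (piB R p) c else 0)
    (fun c hc => by simp only [(mem_filter.1 hc).2])]
  split_ifs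
  · have h1 : (Om X R).filter (fun c => univ.filter (fun x => c x < R) = S) =
        Fintype.piFinset (fun x => if x ∈ S then range R else {R}) := by
      ext c
      rw [mem_filter, mem_Om, Fintype.mem_piFinset]
      constructor
      · rintro ⟨h1, rfl⟩ x
        have := h1 x
        split_ifs with hx
        · simpa using hx
        · simp at hx ⊢; omega
      · intro h
        constructor
        · intro x
          have := h x
          split_ifs at this
          · exact (mem_range.1 this).le
          · exact (mem_singleton.1 this).le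
        · ext x
          have := h x
          split_ifs at this with hx
          · simpa [hx] using this
          · simp [hx, mem_singleton.1 this]
    rw [h1]
    unfold wt
    rw [← prod_univ_sum _ (fun _ i => piB R p i)]
    rw [prod_congr rfl (g := fun x => if x ∈ S then p else 1 - p) (fun x _ => by
      split_ifs
      · exact piB_head hR p
      · simp [piB]), prod_ite, prod_const, prod_const, ← card_compl]
    congr 2
    · congr 1; ext x; simp
    · congr 1; ext x; simp
  · simp

noncomputable def exB (R : ℕ) (_ s : ℕ) : ℝ := 2 ^ R * (1 / 2) ^ (s + 1)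

lemma exB_eq {R s : ℕ} (h : s < R) : 2 ^ R * (1 / 2 : ℝ) ^ s = 2 ^ (R - s) := by
  obtain ⟨d, rfl⟩ := Nat.exists_eq_add_of_le h.le
  have : (2 : ℝ) ^ s * (1 / 2) ^ s = 1 := by rw [← mul_pow]; norm_num
  rw [pow_add, Nat.add_sub_cancel_left]
  linear_combination (2 ^ d) * this

lemma sumB_le (R M : ℕ) :
    ∑ k ∈ (range R ×ˢ range M).filter (fun k => 2 ^ (R - k.1) < 4 * k.2), (1 / 32 : ℝ) ^ k.2 ≤
      1 / 2 := by
  calc _ ≤ ∑ k ∈ (range R ×ˢ range M).filter (fun k => 2 ^ (R - k.1) < 4 * k.2),
        (1 / 8 : ℝ) * ((1 / 2) ^ (R - 1 - k.1) * (1 / 2) ^ k.2) := by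
        apply sum_le_sum
        rintro ⟨s, m⟩ hk
        have h1 : 2 ^ (R - s) < 4 * m := (mem_filter.1 hk).2
        have h2 : 0 < m := by
          have := Nat.two_pow_pos (R - s)
          omega
        have h3 : 4 * m ≤ 2 ^ (m + 1) := by
          obtain ⟨m', rfl⟩ := Nat.exists_eq_succ_of_ne_zero h2.ne'
          have := (Nat.lt_two_pow_self (n := m'))
          rw [pow_succ, pow_succ]
          omega
        have h4 := (Nat.pow_lt_pow_iff_right (by norm_num)).1 (h1.trans_le h3)
        have h5 : (1 / 2 : ℝ) ^ m ≤ (1 / 2) ^ (R - 1 - s) :=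
          pow_le_pow_of_le_one (by norm_num) (by norm_num) (by omega)
        have h6 : (1 / 8 : ℝ) ^ m ≤ 1 / 8 := pow_le_of_le_one (by norm_num) (by norm_num) h2.ne'
        calc (1 / 32 : ℝ) ^ m = (1 / 8) ^ m * ((1 / 2) ^ m * (1 / 2) ^ m) := by
              rw [← mul_pow, ← mul_pow]; norm_num
          _ ≤ _ := by gcongr
    _ ≤ ∑ k ∈ range R ×ˢ range M, (1 / 8 : ℝ) * ((1 / 2) ^ (R - 1 - k.1) * (1 / 2) ^ k.2) :=
        sum_le_sum_of_subset_of_nonneg (filter_subset _ _) (fun _ _ _ => by positivity)
    _ = (1 / 8 : ℝ) * ((∑ s ∈ range R, (1 / 2) ^ s) * ∑ m ∈ range M, (1 / 2) ^ m) := by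
        rw [← mul_sum, ← sum_range_reflect (fun s => (1 / 2 : ℝ) ^ s) R, sum_mul_sum,
          sum_product]
    _ ≤ (1 / 8 : ℝ) * (2 * 2) := by
        gcongr
        · exact sum_geometric_two_le R
        · exact sum_geometric_two_le M
    _ = _ := by norm_num

omit [DecidableEq Γ] in
theorem kk {H : Finset X} {ρ p : ℝ} (hρ : 0 ≤ ρ)
    (hs : ∀ t : Finset X, ((univ.filter (fun k : Γ => k • t ⊆ H)).card : ℝ) ≤
      Fintype.card Γ * ρ ^ t.card) {R : ℕ} (hR : 0 < R) (hH : H.card ≤ 2 ^ R)
    (hp : 512 * ρ * R ≤ p) (hp0 : 0 < p) (hp1 : p ≤ 1) :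
    1 / 2 ≤ ∑ S : Finset X, if ∃ g : Γ, g • H ⊆ S then
      p ^ S.card * (1 - p) ^ (Fintype.card X - S.card) else 0 := by
  classical
  have hR' : (0 : ℝ) < R := by exact_mod_cast hR
  have h0 : ∀ i, 0 ≤ piB R p i := fun i => by
    unfold piB; split_ifs
    · positivity
    · linarith
  have h1 : ∑ i ∈ range (R + 1), piB R p i = 1 := by
    rw [sum_range_succ, piB_head hR]; simp [piB]
  have h2 := exchange_count (univ : Finset Γ) (fun g y => g • y)
    (fun g => MulAction.injective g) H (fun _ => 0) (fun _ _ => 0) (exB R)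
    (fun _ _ => by unfold exB; positivity) (fun _ _ _ _ => le_rfl) h0 h1
    (fun s hs => by unfold piB; rw [if_pos hs]; positivity) (univ : Finset Γ) (fun h => h • H)
    ((range R ×ˢ range (H.card + 1)).filter (fun k => 2 ^ (R - k.1) < 4 * k.2))
    (fun k s => if k.1 < s then k.2 else 0)
    (fun k => Fintype.card Γ * (1 / 32) ^ k.2) (fun _ _ => by positivity) (by
      rintro a N t hv ⟨ht1, ht2, ht3, ht4⟩
      obtain ⟨y₀, hy₀, hmin⟩ := exists_min_image t a ht2
      obtain ⟨h3, h4⟩ := ht4 y₀ hy₀
      have h5 := hv 0 (a y₀ + 1) (by omega)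
      rw [max_eq_left (by linarith), add_zero] at h5
      have h6 : cnt H (fun _ => 0) a 0 (a y₀ + 1) = 0 := by
        have : (cnt H (fun _ => 0) a 0 (a y₀ + 1) : ℝ) = 0 := le_antisymm h5 (Nat.cast_nonneg _)
        exact_mod_cast this
      have h7 : ∀ y ∈ t, a y = a y₀ := by
        intro y hy
        rw [cnt, card_eq_zero, filter_eq_empty_iff] at h6
        have := h6 (ht1 hy)
        have := hmin y hy
        omega
      have h8 : ∀ s, (if a y₀ < s then t.card else 0) = N s := by
        intro s
        rw [← ht3, prof]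
        split_ifs with h
        · rw [filter_true_of_mem (fun y hy => by rw [h7 y hy]; exact h)]
        · rw [filter_false_of_mem (fun y hy => by rw [h7 y hy]; exact h), card_empty]
      refine ⟨(a y₀, t.card), mem_filter.2 ⟨mem_product.2 ⟨mem_range.2 h3,
        mem_range.2 (Nat.lt_succ_of_le (card_le_card ht1))⟩, ?_⟩, funext h8⟩
      rw [← h8, if_pos (Nat.lt_succ_self _), exB, pow_succ, pow_succ, ← mul_assoc, ← mul_assoc,
        exB_eq h3] at h4
      have : (2 : ℝ) ^ (R - a y₀) < 4 * t.card := by linarith
      exact_mod_cast this) (by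
      rintro ⟨s, m⟩ hk g - a hv
      have h3 : s < R := mem_range.1 (mem_product.1 (mem_filter.1 hk).1).1
      have h4 : 2 ^ (R - s) < 4 * m := (mem_filter.1 hk).2
      set K := H.filter (fun y => s ≤ a y) with hK
      have h5 : K.card ≤ 4 * m := by
        rcases Nat.eq_zero_or_pos s with h | h
        · rw [h, Nat.sub_zero] at h4
          exact ((card_filter_le _ _).trans hH).trans h4.le
        · have h6 := hv 0 s h
          simp only [lt_self_iff_false, if_false, Nat.cast_zero, sub_zero, zero_add, cnt,
            le_refl, true_and] at h6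
          rw [max_eq_right (by unfold exB; positivity), exB, pow_succ, ← mul_assoc,
            exB_eq h3] at h6
          have h7 : (2 : ℝ) ^ (R - s) < 4 * m := by exact_mod_cast h4
          have h8 : (0 : ℝ) ≤ 2 ^ (R - s) := by positivity
          have : (K.card : ℝ) ≤ 4 * m := by linarith
          exact_mod_cast this
      calc _ ≤ ∑ t ∈ H.powerset.filter (Adm H (fun _ => 0) (exB R) R a
            (fun s' => if s < s' then m else 0)), Fintype.card Γ * (1 / 512 : ℝ) ^ m := by
            apply sum_le_sum
            intro t ht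
            obtain ⟨-, -, ht3, ht4⟩ := (mem_filter.1 ht).2
            have hlt : ∀ y ∈ t, a y < R := fun y hy => (ht4 y hy).1
            have hc : t.card = m := by
              have : prof t a R = if s < R then m else 0 := ht3 R
              rwa [if_pos h3, prof, filter_true_of_mem hlt] at this
            have h6 : (univ.filter (fun h : Γ => t.image (fun y => g • y) ⊆ h • H)).card ≤
                (univ.filter (fun k : Γ => k • t ⊆ H)).card := by
              apply card_le_card_of_injOn (fun h => h⁻¹ * g)
              · intro h hh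
                have h7 : g • t ⊆ h • H := (mem_filter.1 (mem_coe.1 hh)).2
                refine mem_coe.2 (mem_filter.2 ⟨mem_univ _, ?_⟩)
                rwa [mul_smul, smul_finset_subset_iff, inv_inv]
              · intro a _ b _ hab
                simpa using hab
            have h7 : ((univ.filter (fun h : Γ => t.image (fun y => g • y) ⊆ h • H)).card : ℝ) ≤
                Fintype.card Γ * ρ ^ m := by
              rw [← hc]
              exact le_trans (by exact_mod_cast h6) (hs t)
            rw [prod_congr rfl (g := fun _ => (p / R)⁻¹)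
              (fun y hy => by rw [piB, if_pos (hlt y hy)]), prod_const, hc]
            calc _ ≤ Fintype.card Γ * ρ ^ m * (p / R)⁻¹ ^ m := by gcongr
              _ = Fintype.card Γ * (ρ * (p / R)⁻¹) ^ m := by rw [mul_pow, mul_assoc]
              _ ≤ _ := by
                  gcongr
                  rw [inv_div, ← mul_div_assoc, div_le_iff₀ hp0]
                  linarith
        _ ≤ ∑ t ∈ K.powerset, Fintype.card Γ * (1 / 512 : ℝ) ^ m := by
            apply sum_le_sum_of_subset_of_nonneg
            · intro t ht
              obtain ⟨ht1, -, ht3, -⟩ := (mem_filter.1 ht).2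
              have h6 : prof t a s = if s < s then m else 0 := ht3 s
              rw [if_neg (lt_irrefl _), prof, card_eq_zero, filter_eq_empty_iff] at h6
              exact mem_powerset.2 (fun y hy => mem_filter.2 ⟨ht1 hy, not_lt.1 (h6 hy)⟩)
            · intros; positivity
        _ = 2 ^ K.card * (Fintype.card Γ * (1 / 512 : ℝ) ^ m) := by
            rw [sum_const, card_powerset, nsmul_eq_mul]; push_cast; rfl
        _ ≤ 2 ^ (4 * m) * (Fintype.card Γ * (1 / 512 : ℝ) ^ m) := by
            gcongr; norm_num
        _ = Fintype.card Γ * (1 / 32) ^ m := by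
            have : (2 : ℝ) ^ (4 * m) * (1 / 512) ^ m = (1 / 32) ^ m := by
              rw [pow_mul, ← mul_pow]; norm_num
            rw [← this]; ring)
  rw [← mul_sum] at h2
  have h3 := sumB_le R (H.card + 1)
  have hΓ : (0 : ℝ) < Fintype.card Γ := by exact_mod_cast Fintype.card_pos
  rw [← push hR p (fun S => ∃ g : Γ, g • H ⊆ S)]
  set E : (X → ℕ) → Prop := fun c => ∃ g : Γ, g • H ⊆ univ.filter (fun x => c x < R) with hE
  have h4 : Fintype.card Γ * Pr (piB R p) R (fun c => ¬ E c) ≤ Fintype.card Γ * (1 / 2) := by
    calc _ = ∑ h : Γ, Pr (piB R p) R (fun c => ¬ E c) := by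
          rw [sum_const, nsmul_eq_mul, card_univ]
      _ ≤ _ := by
          refine le_trans (sum_le_sum (fun h _ => ?_)) h2
          apply Pr_mono h0
          intro c hc hn
          refine ⟨⟨h, mem_univ _, fun i s _ => ?_⟩, ?_⟩
          · rw [filter_false_of_mem (fun y hy => not_not.2 (smul_mem_smul_finset hy))]
            simp [cnt]
          · rintro ⟨g, -, hg⟩
            apply hn
            have h5 := hg 0 R hR
            have h6 : exB R 0 R = 1 / 2 := by
              have : (2 : ℝ) ^ R * (1 / 2) ^ R = 1 := by rw [← mul_pow]; norm_num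
              rw [exB, pow_succ, ← mul_assoc, this, one_mul]
            rw [h6] at h5
            have h7 : cnt H (fun _ => 0) (c ∘ fun y => g • y) 0 R < 1 := by
              have : (cnt H (fun _ => 0) (c ∘ fun y => g • y) 0 R : ℝ) < 1 := by linarith
              exact_mod_cast this
            rw [Nat.lt_one_iff, cnt, card_eq_zero, filter_eq_empty_iff] at h7
            refine ⟨g, fun x hx => ?_⟩
            obtain ⟨y, hy, rfl⟩ := mem_smul_finset.1 hx
            have := h7 hy
            simpa using this
      _ ≤ _ := by gcongr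
  have h5 := le_of_mul_le_mul_left h4 hΓ
  have h6 := Pr_not h1 E
  linarith

end Vale.Agent.P064
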