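import Vale.Agent.P064.Flag

/-! One step along the flag. -/

namespace Vale.Agent.P064

open Finset
open scoped Pointwise

noncomputable def exx (j i s : ℕ) : ℝ := 4 ^ i * (1 / 2) ^ s * ((1 / 2) ^ (i - j) * (1 / 2) ^ (j - i))

noncomputable def tll (j i s : ℕ) : ℝ :=
  4 ^ i * (1 / 2) ^ s * (2 * (1 / 2) ^ (j - i) + 1 - (1 / 2) ^ (i - j))

lemma exx_nonneg (j i s : ℕ) : 0 ≤ exx j i s := by unfold exx; positivity

lemma tll_succ (j i s : ℕ) : tll (j + 1) i s + exx j i s = tll j i s := by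
  unfold tll exx
  rw [← mul_add]
  congr 1
  rcases le_or_gt i j with h | h
  · obtain ⟨d, rfl⟩ := Nat.exists_eq_add_of_le h
    have h1 : i + d + 1 - i = d + 1 := by omega
    have h2 : i - (i + d + 1) = 0 := by omega
    have h3 : i - (i + d) = 0 := by omega
    have h4 : i + d - i = d := by omega
    rw [h1, h2, h3, h4, pow_succ]; ring
  · obtain ⟨d, rfl⟩ := Nat.exists_eq_add_of_lt h
    have h1 : j + 1 - (j + d + 1) = 0 := by omega
    have h2 : j + d + 1 - (j + 1) = d := by omega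
    have h3 : j + d + 1 - j = d + 1 := by omega
    have h4 : j - (j + d + 1) = 0 := by omega
    rw [h1, h2, h3, h4, pow_succ]; ring

lemma tll_nonneg (j i s : ℕ) : 0 ≤ tll j i s := by
  unfold tll
  have h1 : (1 / 2 : ℝ) ^ (i - j) ≤ 1 := pow_le_one₀ (by norm_num) (by norm_num)
  have h2 : (0 : ℝ) ≤ (1 / 2) ^ (j - i) := by positivity
  exact mul_nonneg (by positivity) (by linarith)

lemma tll_le (j i s : ℕ) : tll j i s ≤ 3 * 4 ^ i * (1 / 2) ^ s := by
  unfold tll
  have h1 : (1 / 2 : ℝ) ^ (j - i) ≤ 1 := pow_le_one₀ (by norm_num) (by norm_num)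
  have h2 : (0 : ℝ) ≤ (1 / 2) ^ (i - j) := by positivity
  have h3 : (0 : ℝ) ≤ 4 ^ i * (1 / 2) ^ s := by positivity
  nlinarith

lemma exx_mono (j : ℕ) (i i' s : ℕ) (h : i ≤ i') : exx j i s ≤ exx j i' s := by
  induction h with
  | refl => exact le_rfl
  | step _ ih =>
    rename_i k _
    refine ih.trans ?_
    unfold exx
    have h1 : (1 / 2 : ℝ) ^ (k - j) * (1 / 2) ≤ (1 / 2) ^ (k + 1 - j) := by
      rw [← pow_succ]
      exact pow_le_pow_of_le_one (by norm_num) (by norm_num) (by omega)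
    have h2 : (1 / 2 : ℝ) ^ (j - k) ≤ (1 / 2) ^ (j - (k + 1)) :=
      pow_le_pow_of_le_one (by norm_num) (by norm_num) (by omega)
    have h3 : (1 / 2 : ℝ) ^ (k - j) * (1 / 2) * (1 / 2) ^ (j - k) ≤
      (1 / 2) ^ (k + 1 - j) * (1 / 2) ^ (j - (k + 1)) := by gcongr
    have h4 : (0 : ℝ) ≤ (1 / 2 : ℝ) ^ (k - j) * (1 / 2) ^ (j - k) := by positivity
    have h5 : (0 : ℝ) ≤ 4 ^ k * (1 / 2) ^ s := by positivity
    rw [Nat.succ_eq_add_one, pow_succ]
    nlinarith

lemma key_est {j i s : ℕ} {n : ℝ} (h : exx j i (s + 1) < n) :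
    4 ^ j * 4 ^ i * (1 / 128 : ℝ) ^ (j - i) ≤ n ^ 2 * 8 ^ (s + 1) * min 1 (n / 4 ^ j) := by
  have hn : 0 < n := (exx_nonneg _ _ _).trans_lt h
  unfold exx at h
  set u : ℝ := 2 ^ (s + 1) with hu
  have hu1 : 1 ≤ u := one_le_pow₀ (by norm_num)
  have hu2 : (1 / 2 : ℝ) ^ (s + 1) = u⁻¹ := by rw [hu, one_div, inv_pow]
  have hu3 : (8 : ℝ) ^ (s + 1) = u ^ 3 := by
    rw [hu, ← pow_mul, mul_comm, pow_mul]; norm_num
  rw [hu2] at h
  rw [hu3]
  have hJ : (0 : ℝ) < 4 ^ j := by positivity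
  rcases le_or_gt j i with hij | hij
  · obtain ⟨d, rfl⟩ := Nat.exists_eq_add_of_le hij
    have h1 : j + d - j = d := by omega
    have h2 : j - (j + d) = 0 := by omega
    rw [h1, h2] at h
    rw [h2]
    set w : ℝ := 4 ^ j * 2 ^ d with hw
    have hd : (1 : ℝ) ≤ 2 ^ d := one_le_pow₀ (by norm_num)
    have h3 : (4 : ℝ) ^ (j + d) * u⁻¹ * ((1 / 2) ^ d * (1 / 2) ^ 0) = w / u := by
      have : (4 : ℝ) ^ d * (1 / 2) ^ d = 2 ^ d := by rw [← mul_pow]; norm_num
      rw [pow_add, hw, ← this]; ring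
    rw [h3, div_lt_iff₀ (by positivity)] at h
    have h4 : (4 : ℝ) ^ j * 4 ^ (j + d) * (1 / 128) ^ 0 = w ^ 2 := by
      have : (4 : ℝ) ^ d = (2 ^ d) ^ 2 := by rw [← pow_mul, mul_comm, pow_mul]; norm_num
      rw [pow_add, hw, this]; ring
    rw [h4]
    have h5 : w ^ 2 ≤ (n * u) ^ 2 := pow_le_pow_left₀ (by positivity) h.le 2
    have h6 : 1 ≤ u * min 1 (n / 4 ^ j) := by
      rw [mul_min_of_nonneg _ _ (by positivity), le_min_iff]
      refine ⟨by linarith, ?_⟩
      rw [← mul_div_assoc, le_div_iff₀ hJ]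
      nlinarith
    calc w ^ 2 ≤ (n * u) ^ 2 * 1 := by linarith
      _ ≤ (n * u) ^ 2 * (u * min 1 (n / 4 ^ j)) := by gcongr
      _ = _ := by ring
  · obtain ⟨d, rfl⟩ := Nat.exists_eq_add_of_le hij.le
    have h1 : i + d - i = d := by omega
    have h2 : i - (i + d) = 0 := by omega
    rw [h1, h2] at h
    rw [h1]
    set w : ℝ := 4 ^ i * (1 / 2) ^ d with hw
    have hw0 : 0 < w := by positivity
    have h3 : (4 : ℝ) ^ i * u⁻¹ * ((1 / 2) ^ 0 * (1 / 2) ^ d) = w / u := by
      rw [hw]; ring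
    rw [h3, div_lt_iff₀ (by positivity)] at h
    have e1 : (4 : ℝ) ^ d * (1 / 128) ^ d = ((1 / 2) ^ d) ^ 2 * (1 / 8) ^ d := by
      rw [← pow_mul, mul_comm d 2, pow_mul, ← mul_pow, ← mul_pow]; norm_num
    have e2 : (4 : ℝ) ^ d * 4 ^ d * (1 / 128) ^ d = ((1 / 2) ^ d) ^ 3 := by
      rw [← pow_mul, mul_comm d 3, pow_mul, ← mul_pow, ← mul_pow]; norm_num
    have h8 : (1 / 8 : ℝ) ^ d ≤ 1 := pow_le_one₀ (by norm_num) (by norm_num)
    rw [mul_min_of_nonneg _ _ (by positivity), le_min_iff]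
    constructor
    · have h4 : (4 : ℝ) ^ (i + d) * 4 ^ i * (1 / 128) ^ d = w ^ 2 * (1 / 8) ^ d := by
        rw [pow_add, hw]
        linear_combination (4 ^ i * 4 ^ i) * e1
      have h5 : w ^ 2 ≤ (n * u) ^ 2 := pow_le_pow_left₀ (by positivity) h.le 2
      rw [h4]
      calc w ^ 2 * (1 / 8) ^ d ≤ (n * u) ^ 2 * u := by gcongr; linarith
        _ = _ := by ring
    · have h5 : w ^ 3 ≤ (n * u) ^ 3 := pow_le_pow_left₀ (by positivity) h.le 3
      rw [← mul_div_assoc, le_div_iff₀ hJ]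
      have h4 : (4 : ℝ) ^ (i + d) * 4 ^ i * (1 / 128) ^ d * 4 ^ (i + d) = w ^ 3 := by
        rw [pow_add, hw]
        linear_combination (4 ^ i * 4 ^ i * 4 ^ i) * e2
      rw [h4]
      linarith

variable {Γ X : Type} [Group Γ] [Fintype Γ] [DecidableEq Γ] [Fintype X] [DecidableEq X]
  [MulAction Γ X]

omit [Fintype X] [DecidableEq X] in
lemma mass_le {H D : Finset X} (hD : D ⊆ H) {lev : X → ℕ}
    (hlev : ∀ i, (H.filter (fun x => lev x ≤ i)).card ≤ 4 ^ i) {j R : ℕ} {a : X → ℕ} {N : ℕ → ℕ}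
    (hv : Valid D lev (tll (j + 1)) (exx j) a N) {n : ℝ} (hn : 0 < n) :
    ∑ y ∈ D.filter (fun y => a y < R ∧ exx j (lev y) (a y + 1) < n),
      (1 / 8 : ℝ) ^ a y * (1 / 128) ^ (j - lev y) ≤ 48 * (n ^ 2 * min 1 (n / 4 ^ j) / 4 ^ j) := by
  set K := D.filter (fun y => a y < R ∧ exx j (lev y) (a y + 1) < n) with hK
  set W : ℝ := n ^ 2 * min 1 (n / 4 ^ j) / 4 ^ j with hW
  have hW0 : 0 ≤ W := by positivity
  rw [← sum_fiberwise_of_maps_to (t := range R) (g := a)
    (fun x hx => mem_range.2 (mem_filter.1 hx).2.1)]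
  calc _ ≤ ∑ s ∈ range R, (1 / 2 : ℝ) ^ s * (24 * W) := by
        apply sum_le_sum
        intro s _
        rcases (K.filter (fun y => a y = s)).eq_empty_or_nonempty with h | h
        · rw [h, sum_empty]; positivity
        obtain ⟨y₀, hy₀, hmax⟩ := exists_max_image _ lev h
        set i := lev y₀ with hi
        have h1 : ((K.filter (fun y => a y = s)).card : ℝ) ≤ 3 * 4 ^ i * (1 / 2) ^ s := by
          rcases Nat.eq_zero_or_pos s with hs | hs
          · have h2 : (K.filter (fun y => a y = s)).card ≤ 4 ^ i := by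
              refine le_trans (card_le_card (fun y hy => ?_)) (hlev i)
              exact mem_filter.2 ⟨hD (mem_filter.1 (mem_filter.1 hy).1).1, hmax y hy⟩
            have h3 : ((K.filter (fun y => a y = s)).card : ℝ) ≤ 4 ^ i := by exact_mod_cast h2
            have h4 : (0 : ℝ) ≤ 4 ^ i := by positivity
            rw [hs] at h3 ⊢
            simp only [pow_zero]
            linarith
          · have h2 : (K.filter (fun y => a y = s)).card ≤ cnt D lev a i s := by
              refine card_le_card (fun y hy => ?_)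
              exact mem_filter.2 ⟨(mem_filter.1 (mem_filter.1 hy).1).1, hmax y hy,
                (mem_filter.1 hy).2.ge⟩
            have h3 : ((K.filter (fun y => a y = s)).card : ℝ) ≤ cnt D lev a i s := by
              exact_mod_cast h2
            have h4 := hv i s hs
            have h5 : max 0 (exx j i s - N s) ≤ exx j i s :=
              max_le (exx_nonneg _ _ _) (by linarith [Nat.cast_nonneg (α := ℝ) (N s)])
            have h6 := tll_succ j i s
            have h7 := tll_le j i s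
            linarith
        have h2 : exx j i (s + 1) < n := by
          have := (mem_filter.1 (mem_filter.1 hy₀).1).2.2
          rwa [(mem_filter.1 hy₀).2] at this
        have h3 := key_est h2
        have hJ : (0 : ℝ) < 4 ^ j := by positivity
        have h4 : 4 ^ i * (1 / 128 : ℝ) ^ (j - i) ≤ 8 ^ (s + 1) * W := by
          rw [hW, ← mul_div_assoc, le_div_iff₀ hJ]
          linarith
        have h5 : (1 / 8 : ℝ) ^ s * 8 ^ (s + 1) = 8 := by
          rw [pow_succ, ← mul_assoc, ← mul_pow]; norm_num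
        calc _ ≤ ∑ y ∈ K.filter (fun y => a y = s), (1 / 8 : ℝ) ^ s * (1 / 128) ^ (j - i) := by
              apply sum_le_sum
              intro y hy
              rw [(mem_filter.1 hy).2]
              apply mul_le_mul_of_nonneg_left _ (by positivity)
              have := hmax y hy
              exact pow_le_pow_of_le_one (by norm_num) (by norm_num) (by omega)
          _ = (K.filter (fun y => a y = s)).card * ((1 / 8 : ℝ) ^ s * (1 / 128) ^ (j - i)) := by
              rw [sum_const, nsmul_eq_mul]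
          _ ≤ (3 * 4 ^ i * (1 / 2) ^ s) * ((1 / 8 : ℝ) ^ s * (1 / 128) ^ (j - i)) := by gcongr
          _ = 3 * (1 / 2) ^ s * (1 / 8 : ℝ) ^ s * (4 ^ i * (1 / 128) ^ (j - i)) := by ring
          _ ≤ 3 * (1 / 2) ^ s * (1 / 8 : ℝ) ^ s * (8 ^ (s + 1) * W) := by gcongr
          _ = _ := by linear_combination (3 * (1 / 2) ^ s * W) * h5
    _ = (∑ s ∈ range R, (1 / 2 : ℝ) ^ s) * (24 * W) := by rw [sum_mul]
    _ ≤ 2 * (24 * W) := by gcongr; exact sum_geometric_two_le R
    _ = _ := by ring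

omit [Fintype X] in
open Classical in
lemma tsum_le {H : Finset X} {lev : X → ℕ} {q q₀ : ℝ} (hq : 0 < q) (hq₀ : 2 ^ 23 * q ≤ q₀)
    (hlev : ∀ i, (H.filter (fun x => lev x ≤ i)).card ≤ 4 ^ i) {j R : ℕ} {π : ℕ → ℝ}
    (hπ : ∀ s < R, π s = q₀ * 16 ^ s) {B B' : Finset X} {G : Finset Γ}
    (hG : Good H lev q j B G) (hB' : B'.card ≤ 4 ^ (j + 1)) {m : Fin R → ℕ} (hm : m ≠ 0)
    {g : Γ} (hg : g ∈ G) {a : X → ℕ} (hv : Valid (H \ B) lev (tll (j + 1)) (exx j) a (dec m)) :
    ∑ t ∈ (H \ B).powerset.filter (Adm (H \ B) lev (exx j) R a (dec m)),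
      ((G.filter (fun h => t.image (fun y => g • y) ⊆ h • B')).card : ℝ) * ∏ y ∈ t, (π (a y))⁻¹ ≤
      G.card * (1 / 4) ^ j * ∏ i : Fin R, ((1 / 2 : ℝ) ^ (i : ℕ) / 16) ^ m i := by
  have hq₀0 : 0 < q₀ := lt_of_lt_of_le (by positivity) hq₀
  set n := ∑ i, m i with hn
  have hn0 : 0 < n := by
    obtain ⟨i, hi⟩ := Function.ne_iff.1 hm
    exact lt_of_lt_of_le (Nat.pos_of_ne_zero hi)
      (single_le_sum (f := m) (fun _ _ => Nat.zero_le _) (mem_univ i))
  have hn' : (0 : ℝ) < n := by exact_mod_cast hn0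
  set K := (H \ B).filter (fun y => a y < R ∧ exx j (lev y) (a y + 1) < n) with hK
  set v : X → ℝ := fun y => 4096 * (q / q₀) * ((1 / 8 : ℝ) ^ a y * (1 / 128) ^ (j - lev y))
    with hv'
  have hv0 : ∀ y, 0 ≤ v y := fun y => by positivity
  set μ : ℝ := min 1 (n / 4 ^ j) with hμ
  have hμ0 : 0 < μ := by positivity
  set S : ℝ := 4096 * (q / q₀) * (48 * (n ^ 2 * μ / 4 ^ j)) with hS
  have hS0 : 0 < S := by positivity
  have h1 : ∑ y ∈ K, v y ≤ S := by
    rw [← mul_sum]
    exact mul_le_mul_of_nonneg_left (mass_le sdiff_subset hlev hv hn') (by positivity)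
  have h2 := esymm_le K v (fun y _ => hv0 y) hS0 h1 hn0
  have h3 := esymm_le B' (fun _ => (1 : ℝ)) (fun _ _ => zero_le_one) (S := 4 ^ (j + 1))
    (by positivity) (by simpa using (by exact_mod_cast hB' : (B'.card : ℝ) ≤ 4 ^ (j + 1))) hn0
  simp only [prod_const_one, sum_const, nsmul_eq_mul, mul_one] at h3
  set Y : ℝ := ∏ i : Fin R, ((1 / 2 : ℝ) ^ (i : ℕ) / 32) ^ m i with hY
  have hY0 : 0 ≤ Y := by positivity
  have hG0 : (0 : ℝ) ≤ G.card := Nat.cast_nonneg _
  calc _ ≤ ∑ t ∈ (H \ B).powerset.filter (Adm (H \ B) lev (exx j) R a (dec m)),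
        ((powersetCard n B').card * G.card * Y) * ∏ y ∈ t, v y := by
        apply sum_le_sum
        intro t ht
        obtain ⟨ht1, -, ht3, ht4⟩ := (mem_filter.1 ht).2
        have hlt : ∀ y ∈ t, a y < R := fun y hy => (ht4 y hy).1
        have hty : ty R a t = m := dec_inj (fun s => by rw [dec_ty hlt, ht3])
        have hc : t.card = n := by
          have := ht3 R
          rw [dec_top, prof, filter_true_of_mem hlt] at this
          exact this
        have h4 := spread hG.1 hg t B'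
        rw [hc] at h4
        have h5 : ((G.filter (fun h => t.image (fun y => g • y) ⊆ h • B')).card : ℝ) ≤
            (powersetCard n B').card * (stab G t).card := by
          have : ((G.filter (fun h => g • t ⊆ h • B')).card : ℝ) ≤
            (powersetCard n B').card * (stab G t).card := by exact_mod_cast h4
          exact this
        have h6 := hG.2.2.2.2 t ht1
        have h7 := prod_ty hlt (fun s => (1 / 2 : ℝ) ^ s / 32)
        rw [hty] at h7
        have h8 : (∏ y ∈ t, rr q lev j y) * ∏ y ∈ t, (π (a y))⁻¹ = Y * ∏ y ∈ t, v y := by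
          rw [hY, ← h7, ← prod_mul_distrib, ← prod_mul_distrib]
          apply prod_congr rfl
          intro y hy
          rw [hπ _ (hlt y hy), hv', rr]
          have : (1 / 2 : ℝ) ^ a y * (1 / 8) ^ a y = (16 ^ a y)⁻¹ := by
            rw [← mul_pow, ← inv_pow]; norm_num
          rw [mul_inv, ← this]
          simp only
          ring
        have h9 : 0 ≤ ∏ y ∈ t, (π (a y))⁻¹ :=
          prod_nonneg (fun y hy => by rw [hπ _ (hlt y hy)]; positivity)
        calc _ ≤ ((powersetCard n B').card * (G.card * ∏ y ∈ t, rr q lev j y)) *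
              ∏ y ∈ t, (π (a y))⁻¹ := by
              apply mul_le_mul_of_nonneg_right _ h9
              exact h5.trans (mul_le_mul_of_nonneg_left h6 (Nat.cast_nonneg _))
          _ = _ := by linear_combination ((powersetCard n B').card * G.card) * h8
    _ ≤ ∑ t ∈ powersetCard n K, ((powersetCard n B').card * G.card * Y) * ∏ y ∈ t, v y := by
        apply sum_le_sum_of_subset_of_nonneg
        · intro t ht
          obtain ⟨ht1, -, ht3, ht4⟩ := (mem_filter.1 ht).2
          have hlt : ∀ y ∈ t, a y < R := fun y hy => (ht4 y hy).1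
          refine mem_powersetCard.2 ⟨fun y hy => mem_filter.2 ⟨ht1 hy, hlt y hy, ?_⟩, ?_⟩
          · exact (ht4 y hy).2.trans_le (by exact_mod_cast dec_le m _)
          · have := ht3 R
            rw [dec_top, prof, filter_true_of_mem hlt] at this
            exact this
        · intro t _ _
          exact mul_nonneg (by positivity) (prod_nonneg (fun y _ => hv0 y))
    _ = (G.card * Y) * ((powersetCard n B').card * ∑ t ∈ powersetCard n K, ∏ y ∈ t, v y) := by
        rw [← mul_sum]; ring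
    _ ≤ (G.card * Y) * ((3 * 4 ^ (j + 1) / n) ^ n * (3 * S / n) ^ n) := by
        gcongr
    _ ≤ (G.card * Y) * (2 ^ n * (1 / 4) ^ j) := by
        apply mul_le_mul_of_nonneg_left _ (by positivity)
        rw [← mul_pow]
        have h4 : 3 * 4 ^ (j + 1) / n * (3 * S / n) = 7077888 * (q / q₀) * μ := by
          rw [hS, pow_succ]; field_simp; norm_num
        have h5 : 7077888 * (q / q₀) ≤ 1 := by
          rw [← mul_div_assoc, div_le_one hq₀0]
          nlinarith
        have h6 : (n : ℝ) ≤ 2 ^ n := by exact_mod_cast (Nat.lt_two_pow_self).le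
        calc _ ≤ μ ^ n := by
              rw [h4]
              apply pow_le_pow_left₀ (by positivity)
              nlinarith
          _ ≤ μ := pow_le_of_le_one hμ0.le (min_le_left _ _) hn0.ne'
          _ ≤ n / 4 ^ j := min_le_right _ _
          _ ≤ 2 ^ n / 4 ^ j := by gcongr
          _ = _ := by rw [one_div, inv_pow, div_eq_mul_inv]
    _ = _ := by
        have : Y * 2 ^ n = ∏ i : Fin R, ((1 / 2 : ℝ) ^ (i : ℕ) / 16) ^ m i := by
          rw [hY, hn, ← prod_pow_eq_pow_sum, ← prod_mul_distrib]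
          apply prod_congr rfl
          intro i _
          rw [← mul_pow]; congr 1; ring
        rw [← this]; ring

/-- the event at stage `j` -/
def Ev (H : Finset X) (lev : X → ℕ) (j : ℕ) (B : Finset X) (G : Finset Γ) (c : X → ℕ) : Prop :=
  ∃ g ∈ G, ∀ i s, 1 ≤ s → (cnt (H \ B) lev (c ∘ fun y => g • y) i s : ℝ) ≤ tll j i s

lemma step {H : Finset X} {lev : X → ℕ} {q q₀ : ℝ} (hq : 0 < q) (hq₀ : 2 ^ 23 * q ≤ q₀)
    (hlev : ∀ i, (H.filter (fun x => lev x ≤ i)).card ≤ 4 ^ i) {j R : ℕ} {π : ℕ → ℝ}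
    (h0 : ∀ i, 0 ≤ π i) (h1 : ∑ i ∈ range (R + 1), π i = 1)
    (hπ : ∀ s < R, π s = q₀ * 16 ^ s) {B B' : Finset X} {G G' : Finset Γ}
    (hG : Good H lev q j B G) (hB' : B'.card ≤ 4 ^ (j + 1)) (hG' : G' ⊆ G)
    (hs : ∀ k ∈ G', k • B' = B') :
    Pr π R (fun c => Ev H lev (j + 1) B' G' c ∧ ¬ Ev H lev j B G c) ≤ (1 / 4) ^ j / 3 := by
  classical
  have hq₀0 : 0 < q₀ := lt_of_lt_of_le (by positivity) hq₀
  have h2 := exchange_count G (fun g y => g • y) (fun g => MulAction.injective g) (H \ B) lev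
    (tll (j + 1)) (exx j) (exx_nonneg j) (exx_mono j) h0 h1
    (fun s hs => by rw [hπ s hs]; positivity) G (fun h => h • B')
    ((Fintype.piFinset (fun _ : Fin R => range (Fintype.card X + 1))).erase 0) dec
    (fun m => G.card * (1 / 4) ^ j * ∏ i : Fin R, ((1 / 2 : ℝ) ^ (i : ℕ) / 16) ^ m i)
    (fun _ _ => by positivity) (by
      intro a N t _ ht
      obtain ⟨-, ⟨x, hx⟩, ht3, ht4⟩ := ht
      have hlt : ∀ y ∈ t, a y < R := fun y hy => (ht4 y hy).1
      refine ⟨ty R a t, mem_erase.2 ⟨fun h => ?_, ?_⟩, funext (fun s => by rw [dec_ty hlt, ht3])⟩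
      · have h1 := congrFun h ⟨a x, hlt x hx⟩
        simp only [ty, Pi.zero_apply, card_eq_zero, filter_eq_empty_iff] at h1
        exact h1 hx rfl
      · rw [Fintype.mem_piFinset]
        intro i
        exact mem_range.2 (Nat.lt_succ_of_le (card_le_univ _))) (by
      intro m hm g hg a hv
      convert tsum_le hq hq₀ hlev hπ hG hB' (mem_erase.1 hm).1 hg hv)
  rw [← mul_sum] at h2
  have h3 := types_le R (Fintype.card X)
  have hG0 : (0 : ℝ) < G.card := by exact_mod_cast card_pos.2 ⟨1, hG.1.1⟩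
  have h4 : G.card * Pr π R (fun c => Ev H lev (j + 1) B' G' c ∧ ¬ Ev H lev j B G c) ≤
      G.card * ((1 / 4) ^ j / 3) := by
    calc _ = ∑ h ∈ G, Pr π R (fun c => Ev H lev (j + 1) B' G' c ∧ ¬ Ev H lev j B G c) := by
          rw [sum_const, nsmul_eq_mul]
      _ ≤ _ := by
          refine le_trans (sum_le_sum (fun h hh => ?_)) h2
          rw [← Pr_comp π (MulAction.toPerm h)]
          apply Pr_mono h0
          rintro c - ⟨⟨g, hg, h5⟩, h6⟩
          refine ⟨⟨h * g, hG.1.2.1 _ hh _ (hG' hg), fun i s hs' => le_trans ?_ (h5 i s hs')⟩, ?_⟩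
          · unfold cnt
            norm_cast
            apply card_le_card
            intro y hy
            simp only [mem_filter, mem_sdiff, Function.comp, MulAction.toPerm_apply,
              mul_smul] at hy ⊢
            refine ⟨⟨hy.1.1.1, fun h7 => hy.1.2 ?_⟩, hy.2⟩
            rw [smul_mem_smul_finset_iff, ← hs g hg, smul_mem_smul_finset_iff]
            exact h7
          · rintro ⟨g', hg', h7⟩
            apply h6
            refine ⟨h⁻¹ * g', hG.1.2.1 _ (hG.1.2.2 _ hh) _ hg', fun i s hs' => ?_⟩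
            rw [← tll_succ]
            convert h7 i s hs' using 3
            ext y
            simp [mul_smul]
      _ ≤ G.card * (1 / 4) ^ j * (1 / 3) := by gcongr
      _ = _ := by ring
  exact le_of_mul_le_mul_left h4 hG0

lemma chain {H : Finset X} {lev : X → ℕ} {q q₀ : ℝ} (hq : 0 < q) (hq₀ : 2 ^ 23 * q ≤ q₀)
    (hH : ∀ U ⊆ H, U.Nonempty →
      ((stab (univ : Finset Γ) U).card : ℝ) ≤ 2 * Fintype.card Γ * q ^ U.card)
    (hlev : ∀ i, (H.filter (fun x => lev x ≤ i)).card ≤ 4 ^ i) {R : ℕ} {π : ℕ → ℝ}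
    (h0 : ∀ i, 0 ≤ π i) (h1 : ∑ i ∈ range (R + 1), π i = 1)
    (hπ : ∀ s < R, π s = q₀ * 16 ^ s) (d : ℕ) : ∀ (j : ℕ) (B : Finset X) (G : Finset Γ),
    H.card ≤ 4 ^ (j + d) → Good H lev q j B G →
    Pr π R (fun c => ¬ Ev H lev j B G c) ≤ (1 / 4) ^ j * (4 / 9) := by
  induction d with
  | zero =>
    intro j B G hj hG
    have h2 := step hq hq₀ hlev h0 h1 hπ hG (B' := H) (G' := {1})
      (hj.trans (Nat.pow_le_pow_right (by norm_num) (by omega)))
      (singleton_subset_iff.2 hG.1.1) (fun k hk => by rw [mem_singleton.1 hk, one_smul])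
    have h3 : (0 : ℝ) ≤ (1 / 4) ^ j := by positivity
    refine le_trans (Pr_mono h0 (fun c _ hc => ⟨⟨1, mem_singleton_self _, fun i s _ => ?_⟩, hc⟩))
      (h2.trans (by linarith))
    simpa [cnt] using tll_nonneg _ _ _
  | succ d ih =>
    intro j B G hj hG
    obtain ⟨B', G', hG', hsub⟩ := hG.next hq
    have h2 := step hq hq₀ hlev h0 h1 hπ hG (hG'.size hq hH hlev) hsub hG'.2.2.1
    have h3 := ih (j + 1) B' G' (by rwa [add_assoc, add_comm 1 d]) hG'
    refine le_trans (Pr_or h0 (fun c _ hc => ?_)) ((add_le_add h2 h3).trans (le_of_eq ?_))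
    · by_cases h : Ev H lev (j + 1) B' G' c
      · exact Or.inl ⟨h, hc⟩
      · exact Or.inr h
    · rw [pow_succ]; ring

theorem selector {H : Finset X} {lev : X → ℕ} {q q₀ : ℝ} (hq : 0 < q) (hq₀ : 2 ^ 23 * q ≤ q₀)
    (hH : ∀ U ⊆ H, U.Nonempty →
      ((stab (univ : Finset Γ) U).card : ℝ) ≤ 2 * Fintype.card Γ * q ^ U.card)
    (hlev : ∀ i, (H.filter (fun x => lev x ≤ i)).card ≤ 4 ^ i) {R : ℕ} {π : ℕ → ℝ}
    (h0 : ∀ i, 0 ≤ π i) (h1 : ∑ i ∈ range (R + 1), π i = 1)
    (hπ : ∀ s < R, π s = q₀ * 16 ^ s) :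
    1 / 2 ≤ Pr π R (Ev H lev 0 ∅ (univ : Finset Γ)) := by
  have h2 := chain hq hq₀ hH hlev h0 h1 hπ H.card 0 ∅ univ
    (by rw [zero_add]; exact (Nat.lt_pow_self (by norm_num)).le) (by
      refine ⟨⟨mem_univ _, fun _ _ _ _ => mem_univ _, fun _ _ => mem_univ _⟩, empty_subset _,
        fun k _ => smul_finset_empty _, by simp, fun t ht => ?_⟩
      rcases t.eq_empty_or_nonempty with rfl | hne
      · simpa using card_le_univ _
      · refine (hH t (ht.trans sdiff_subset) hne).trans ?_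
        simp only [rr, Nat.zero_sub, pow_zero, mul_one, prod_const, card_univ, mul_pow]
        have h3 : (128 : ℝ) ≤ 128 ^ t.card := le_self_pow₀ (by norm_num) hne.card_pos.ne'
        have h4 : (0 : ℝ) ≤ Fintype.card Γ * q ^ t.card := by positivity
        nlinarith)
  have h3 := Pr_not h1 (Ev H lev 0 ∅ (univ : Finset Γ))
  norm_num at h2
  linarith

end Vale.Agent.P064
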